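import Vale.Agent.P315.H731.Avg
import Vale.Agent.P315.Model

/-! From the words of a random tape to independent uniform coins. -/

set_option autoImplicit false

open Finset

namespace Vale.Agent.P315.H731

/-! ### Maps between families of coins -/

section Maps

variable {ι : Type*} [Fintype ι] [DecidableEq ι]

/-- A family of maps with fibres of constant size maps the uniform distribution to the uniform
distribution. -/
theorem av_map_pi {A B : ι → Type*} [∀ i, Fintype (A i)] [∀ i, Fintype (B i)]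
    [∀ i, DecidableEq (B i)] [∀ i, Nonempty (A i)] (g : ∀ i, A i → B i) (k : ι → ℕ)
    (hk : ∀ i b, (univ.filter (fun a => g i a = b)).card = k i) (f : (∀ i, B i) → ℝ) :
    av (fun c : ∀ i, A i => f (fun i => g i (c i))) = av f := by
  classical
  have hcA : ∀ i, Fintype.card (A i) = Fintype.card (B i) * k i := by
    intro i
    have h1 := card_eq_sum_card_fiberwise (f := g i) (s := (univ : Finset (A i)))
      (t := (univ : Finset (B i))) (fun a _ => mem_univ _)
    rw [card_univ] at h1
    rw [h1]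
    simp only [hk i, sum_const, card_univ, smul_eq_mul]
  have hk0 : ∀ i, 0 < k i := by
    intro i
    obtain ⟨a⟩ := (inferInstance : Nonempty (A i))
    rw [← hk i (g i a)]
    exact card_pos.mpr ⟨a, by simp⟩
  have hsum : ∑ c : ∀ i, A i, f (fun i => g i (c i)) = (∏ i, (k i : ℝ)) * ∑ d, f d := by
    rw [← sum_fiberwise_of_maps_to (s := (univ : Finset (∀ i, A i)))
      (t := (univ : Finset (∀ i, B i))) (g := fun c => fun i => g i (c i))
      (fun c _ => mem_univ _) (fun c => f (fun i => g i (c i)))]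
    rw [mul_sum]
    apply sum_congr rfl
    intro d _
    have h2 : ∀ c ∈ (univ : Finset (∀ i, A i)).filter (fun c => (fun i => g i (c i)) = d),
        f (fun i => g i (c i)) = f d := by
      intro c hc
      rw [(mem_filter.mp hc).2]
    rw [sum_congr rfl h2, sum_const, nsmul_eq_mul]
    congr 1
    have h3 : (univ : Finset (∀ i, A i)).filter (fun c => (fun i => g i (c i)) = d) =
        Fintype.piFinset (fun i => univ.filter (fun a => g i a = d i)) := by
      ext c
      simp only [mem_filter, mem_univ, true_and, Fintype.mem_piFinset]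
      constructor
      · intro h i; rw [← h]
      · intro h; funext i; exact h i
    rw [h3, Fintype.card_piFinset]
    simp only [hk]
    push_cast
    rfl
  unfold av
  rw [hsum, Fintype.card_pi, Fintype.card_pi]
  have h4 : ((∏ i, Fintype.card (A i) : ℕ) : ℝ) = (∏ i, (k i : ℝ)) *
      ((∏ i, Fintype.card (B i) : ℕ) : ℝ) := by
    rw [prod_congr rfl (fun i _ => hcA i)]
    push_cast
    rw [← prod_mul_distrib]
    apply prod_congr rfl
    intro i _
    ring
  rw [h4]
  have h5 : (∏ i, (k i : ℝ)) ≠ 0 := prod_ne_zero_iff.mpr fun i _ => by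
    have := hk0 i
    positivity
  rw [mul_div_mul_left _ _ h5]

/-- Restriction to some of the coordinates. -/
theorem av_restrict {κ : Type*} [Fintype κ] [DecidableEq κ] {X : Type*} [Fintype X] [Nonempty X]
    (φ : ι → κ) (hφ : Function.Injective φ) (f : (ι → X) → ℝ) :
    av (fun c : κ → X => f (fun i => c (φ i))) = av f := by
  classical
  let e1 := Equiv.piEquivPiSubtypeProd (fun k : κ => k ∈ Set.range φ) (fun _ => X)
  let e2 : ({k : κ // k ∈ Set.range φ} → X) ≃ (ι → X) :=
    Equiv.arrowCongr (Equiv.ofInjective φ hφ).symm (Equiv.refl X)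
  have h1 : ∀ c : κ → X, f (fun i => c (φ i)) = (fun p : ({k : κ // k ∈ Set.range φ} → X) ×
      ({k : κ // ¬ k ∈ Set.range φ} → X) => f (e2 p.1)) (e1 c) := by
    intro c
    show _ = f (e2 (e1 c).1)
    congr 1
  rw [av_congr h1, av_equiv e1 (fun p => f (e2 p.1)), av_fst (fun c => f (e2 c)), av_equiv e2]

end Maps

/-- The residues of a uniform word. -/
theorem card_fibre_mod {N e : ℕ} (he : 0 < e) (hd : e ∣ N) (b : Fin e) :
    (univ.filter (fun a : Fin N => (⟨(a : ℕ) % e, Nat.mod_lt _ he⟩ : Fin e) = b)).card = N / e := by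
  obtain ⟨q, rfl⟩ := hd
  rw [Nat.mul_div_cancel_left _ he]
  have h1 : (univ.filter (fun a : Fin (e * q) => (⟨(a : ℕ) % e, Nat.mod_lt _ he⟩ : Fin e) = b)) =
      (univ : Finset (Fin q)).image (fun j : Fin q => (⟨(b : ℕ) + e * j, by
        have h2 := b.isLt
        have h3 := j.isLt
        have h4 : e * (j + 1) ≤ e * q := Nat.mul_le_mul_left _ h3
        rw [Nat.mul_add, Nat.mul_one] at h4
        omega⟩ : Fin (e * q))) := by
    ext a
    simp only [mem_filter, mem_univ, true_and, mem_image, Fin.ext_iff]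
    constructor
    · intro h
      refine ⟨⟨(a : ℕ) / e, Nat.div_lt_of_lt_mul a.isLt⟩, ?_⟩
      have := Nat.mod_add_div (a : ℕ) e
      simp only
      omega
    · rintro ⟨j, hj⟩
      rw [← hj, Nat.add_mul_mod_self_left, Nat.mod_eq_of_lt b.isLt]
  rw [h1, card_image_of_injective, card_univ, Fintype.card_fin]
  intro j j' hjj
  simp only [Fin.ext_iff] at hjj
  apply Fin.ext
  have : e * (j : ℕ) = e * (j' : ℕ) := by omega
  exact Nat.eq_of_mul_eq_mul_left he this

section Tape

variable {ι : Type*} [Fintype ι] [DecidableEq ι]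

/-- Coin `i` is the word number `pos i` of the tape, modulo `e i`. -/
def coinsOf (pos : ι → ℕ) (e : ι → ℕ) (he : ∀ i, 0 < e i) (ρ : ℕ → ℕ) : ∀ i, Fin (e i) :=
  fun i => ⟨ρ (pos i) % e i, Nat.mod_lt _ (he i)⟩

/-- The coins read off a uniformly random tape are independent and uniform. -/
theorem tape_av {N T : ℕ} (pos : ι → ℕ) (hinj : Function.Injective pos) (hT : ∀ i, pos i < T)
    (e : ι → ℕ) (he : ∀ i, 0 < e i) (hd : ∀ i, e i ∣ N) (hN : 0 < N)
    (f : (∀ i, Fin (e i)) → ℝ) :
    av (fun ρ : Fin T → Fin N => f (coinsOf pos e he (tape ρ))) = av f := by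
  classical
  have : Nonempty (Fin N) := ⟨⟨0, hN⟩⟩
  have h1 : ∀ ρ : Fin T → Fin N, f (coinsOf pos e he (tape ρ)) =
      (fun w : ι → Fin N => f (fun i => (⟨(w i : ℕ) % e i, Nat.mod_lt _ (he i)⟩ : Fin (e i))))
        (fun i => ρ (⟨pos i, hT i⟩ : Fin T)) := by
    intro ρ
    show _ = f _
    congr 1
    funext i
    apply Fin.ext
    show tape ρ (pos i) % e i = _
    unfold tape
    rw [dif_pos (hT i)]
  rw [av_congr h1]
  rw [av_restrict (fun i => (⟨pos i, hT i⟩ : Fin T)) (fun i j hij => hinj (by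
    simpa using hij)) (fun w : ι → Fin N => f (fun i => (⟨(w i : ℕ) % e i,
      Nat.mod_lt _ (he i)⟩ : Fin (e i))))]
  exact av_map_pi (A := fun _ => Fin N) (fun i (a : Fin N) => (⟨(a : ℕ) % e i,
    Nat.mod_lt _ (he i)⟩ : Fin (e i))) (fun i => N / e i)
    (fun i b => card_fibre_mod (he i) (hd i) b) f

/-- The same for numbers of tapes. -/
theorem tape_card {N T : ℕ} (pos : ι → ℕ) (hinj : Function.Injective pos) (hT : ∀ i, pos i < T)
    (e : ι → ℕ) (he : ∀ i, 0 < e i) (hd : ∀ i, e i ∣ N) (hN : 0 < N)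
    (P : (∀ i, Fin (e i)) → Prop) [DecidablePred P] :
    (univ.filter (fun ρ : Fin T → Fin N => P (coinsOf pos e he (tape ρ)))).card * ∏ i, e i =
      (univ.filter P).card * N ^ T := by
  classical
  have h := tape_av pos hinj hT e he hd hN (fun c => if P c then (1 : ℝ) else 0)
  rw [av_ind (fun ρ : Fin T → Fin N => P (coinsOf pos e he (tape ρ))), av_ind] at h
  simp only [Fintype.card_pi, Fintype.card_fin, prod_const, card_univ] at h
  have h1 : (0 : ℝ) < ((∏ i, e i : ℕ) : ℝ) := by
    exact_mod_cast prod_pos fun i _ => he i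
  have h2 : (0 : ℝ) < ((N ^ T : ℕ) : ℝ) := by exact_mod_cast Nat.pow_pos hN
  rw [div_eq_div_iff h2.ne' h1.ne'] at h
  exact_mod_cast h

end Tape

/-! ### Probability two thirds -/

/-- A bad event of probability at most one third. -/
theorem two_thirds_of_bad {Ω : Type*} [Fintype Ω] (P : Ω → Prop) [DecidablePred P]
    (h : 3 * av (fun c => if ¬ P c then (1 : ℝ) else 0) ≤ 1) :
    2 * Nat.card Ω ≤ 3 * Nat.card {c : Ω // P c} := by
  classical
  rcases isEmpty_or_nonempty Ω with hE | hE
  · simp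
  · have hc := card_pos' (Ω := Ω)
    rw [av_ind (fun c => ¬ P c)] at h
    rw [← mul_div_assoc, div_le_one hc] at h
    have h1 : 3 * (univ.filter (fun c => ¬ P c)).card ≤ Fintype.card Ω := by exact_mod_cast h
    have h2 := card_filter_add_card_filter_not (s := (univ : Finset Ω)) (fun c => P c)
    rw [card_univ] at h2
    rw [Nat.card_eq_fintype_card, Nat.card_eq_fintype_card, Fintype.card_subtype]
    omega

/-- Markov: a nonnegative quantity of average at most `a / 3` is at most `a` with probability two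
thirds. -/
theorem two_thirds_of_av {Ω : Type*} [Fintype Ω] (X : Ω → ℝ) (hX : ∀ c, 0 ≤ X c) {a : ℝ}
    (ha : 0 < a) (h : 3 * av X ≤ a) (P : Ω → Prop) (hP : ∀ c, X c ≤ a → P c) :
    2 * Nat.card Ω ≤ 3 * Nat.card {c : Ω // P c} := by
  classical
  apply two_thirds_of_bad
  have h1 := markov hX a (fun c => ¬ P c) (fun c hc => by
    by_contra hlt
    exact hc (hP c (not_le.mp hlt).le))
  have h2 : a * (3 * av (fun c => if ¬ P c then (1 : ℝ) else 0)) ≤ a * 1 := by linarith
  exact le_of_mul_le_mul_left h2 ha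

/-- Final form for tapes: `X` is a nonnegative function of the coins of average at most `a / 3`;
then with probability two thirds over the tapes `X ≤ a`. -/
theorem tape_two_thirds {ι : Type*} [Fintype ι] [DecidableEq ι] {N T : ℕ} (pos : ι → ℕ)
    (hinj : Function.Injective pos) (hT : ∀ i, pos i < T)
    (e : ι → ℕ) (he : ∀ i, 0 < e i) (hd : ∀ i, e i ∣ N) (hN : 0 < N)
    (X : (∀ i, Fin (e i)) → ℝ) (hX : ∀ c, 0 ≤ X c) {a : ℝ} (ha : 0 < a) (h : 3 * av X ≤ a)
    (P : (Fin T → Fin N) → Prop) (hP : ∀ ρ, X (coinsOf pos e he (tape ρ)) ≤ a → P ρ) :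
    2 * Nat.card (Fin T → Fin N) ≤ 3 * Nat.card {ρ : Fin T → Fin N // P ρ} := by
  apply two_thirds_of_av (fun ρ => X (coinsOf pos e he (tape ρ))) (fun ρ => hX _) ha _ P hP
  rw [tape_av pos hinj hT e he hd hN X]
  exact h

/-- Final form with a bad event of the coins. -/
theorem tape_two_thirds_bad {ι : Type*} [Fintype ι] [DecidableEq ι] {N T : ℕ} (pos : ι → ℕ)
    (hinj : Function.Injective pos) (hT : ∀ i, pos i < T)
    (e : ι → ℕ) (he : ∀ i, 0 < e i) (hd : ∀ i, e i ∣ N) (hN : 0 < N)
    (Q : (∀ i, Fin (e i)) → Prop) [DecidablePred Q]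
    (h : 3 * (univ.filter (fun c => ¬ Q c)).card ≤ ∏ i, e i)
    (P : (Fin T → Fin N) → Prop) (hP : ∀ ρ, Q (coinsOf pos e he (tape ρ)) → P ρ) :
    2 * Nat.card (Fin T → Fin N) ≤ 3 * Nat.card {ρ : Fin T → Fin N // P ρ} := by
  classical
  apply two_thirds_of_bad
  have h1 : av (fun ρ : Fin T → Fin N => if ¬ P ρ then (1 : ℝ) else 0) ≤
      av (fun ρ : Fin T → Fin N => (fun c => if ¬ Q c then (1 : ℝ) else 0)
        (coinsOf pos e he (tape ρ))) := by
    apply av_mono
    intro ρ
    by_cases hp : P ρ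
    · simp only [hp, not_true, if_false]
      split_ifs <;> norm_num
    · have hq : ¬ Q (coinsOf pos e he (tape ρ)) := fun hq => hp (hP ρ hq)
      simp [hp, hq]
  rw [tape_av pos hinj hT e he hd hN (fun c => if ¬ Q c then (1 : ℝ) else 0),
    av_ind (fun c => ¬ Q c)] at h1
  simp only [Fintype.card_pi, Fintype.card_fin] at h1
  have h2 : (0 : ℝ) < ((∏ i, e i : ℕ) : ℝ) := by
    exact_mod_cast prod_pos fun i _ => he i
  rw [le_div_iff₀ h2] at h1
  have h3 : (3 : ℝ) * ((univ.filter (fun c => ¬ Q c)).card : ℝ) ≤ ((∏ i, e i : ℕ) : ℝ) := by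
    exact_mod_cast h
  have h4 : (3 * av (fun ρ : Fin T → Fin N => if ¬ P ρ then (1 : ℝ) else 0)) *
      ((∏ i, e i : ℕ) : ℝ) ≤ 1 * ((∏ i, e i : ℕ) : ℝ) := by linarith
  exact le_of_mul_le_mul_right h4 h2

end Vale.Agent.P315.H731
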