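import Vale.Agent.P315.H731.Plug2
import Vale.Agent.P315.H659.Seed

/-!
# Milestone 2: the layout of the seeds in one array

The array `c` (numbers below `e`) contains, one after the other: the `s` hubs of `START` (modulo
`M`) from address `o₁`, the `R` offsets of `START` (modulo `b`) from `o₂`, and the seeds of the
query algorithm (modulo `q`, layout `rndOf` of `H659.Seed`) from `o₃`.
-/

set_option autoImplicit false

open Finset

namespace Vale.Agent.P315.H731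

open Vale.Agent.P315 Vale.Agent.P315.C Vale.Agent.P315.H846
open Vale.Agent.P315.H659 (Ix toRnd rndOf arrOf nSeed adr adr_lt adr_injective adXi adCoin
  adXi_lt adCoin_lt)
open Vale.Agent.P315.H808 (Chain)
open Vale.Agent.P315.H95 (enc)

/-- The random data read from the residues of an array depend on finitely many residues only. -/
theorem rndOf_shift {n M S Cn q J o : ℕ} (a : ℕ → ℕ) (w : Ix n M S Cn → Fin q)
    (hw : ∀ i, (w i : ℕ) = a (o + adr i) % q) :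
    rndOf n M S Cn J (fun i => a (o + i) % q) = toRnd J w := by
  have e1 : (rndOf n M S Cn J (fun i => a (o + i) % q)).xi = (toRnd J w).xi := by
    funext l m
    unfold rndOf toRnd
    dsimp only
    by_cases h : l < n + 1 ∧ m < M
    · rw [if_pos h, dif_pos h, hw]
      rfl
    · rw [if_neg h, dif_neg h]
  have e2 : (rndOf n M S Cn J (fun i => a (o + i) % q)).coin = (toRnd J w).coin := by
    funext l s k
    unfold rndOf toRnd
    dsimp only
    by_cases h : l < n + 1 ∧ s < S ∧ k < Cn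
    · rw [if_pos h, dif_pos h, hw]
      rfl
    · rw [if_neg h, dif_neg h]
  cases hA : rndOf n M S Cn J (fun i => a (o + i) % q)
  cases hB : toRnd J w
  rw [hA, hB] at e1 e2
  simp only at e1 e2
  rw [e1, e2]

theorem arrOf_lt {N e i : ℕ} (c : Fin N → Fin e) (h : i < N) : arrOf c i = c ⟨i, h⟩ := by
  unfold arrOf
  rw [dif_pos h]

/-- **Two thirds of the arrays are good** (milestone 2). -/
theorem good2_arr {Q : QPar} {m w0 Kc κr : ℕ} {ε A : ℝ} (hε : 0 ≤ ε)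
    (hQ : Good2 Q m w0 Kc κr ε A) {s R N e M b : ℕ} (he : 0 < e) (hM : 0 < M) (hb : 0 < b)
    (hq : 0 < Q.q) (hMe : M ∣ e) (hbe : b ∣ e) (hqe : Q.q ∣ e) {o₁ o₂ o₃ : ℕ}
    (h₁₂ : o₁ + s ≤ o₂) (h₂₃ : o₂ + R ≤ o₃)
    (h₃ : o₃ + nSeed Q.n Q.P.M Q.P.S Q.Cn ≤ N)
    (E₀ : (Fin s → Fin M) × (Fin R → Fin b) → Prop) [DecidablePred E₀]
    (h₀ : 64 * (univ.filter (fun z => ¬ E₀ z)).card ≤ M ^ s * b ^ R)
    (vis : (Fin s → Fin M) × (Fin R → Fin b) → Leaf) (hid : Leaf) (u v : ℕ) (D W : ℝ)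
    (hI : ∀ z, E₀ z → ∃ (S0 : ℕ → ℕ) (C : Chain Q.P (vis z) hid Q.n),
      Inst2 Q.P m w0 Kc κr (vis z) hid Q.n S0 C ∧ C.pos 0 = u ∧ C.pos Q.K = v ∧
      ∑ i ∈ range Q.K, C.d i ≤ D ∧ ∑ i ∈ range Q.K, (S0 i : ℝ) ≤ W)
    (G : (Fin N → Fin e) → Prop)
    (hG : ∀ (c : Fin N → Fin e) (z : (Fin s → Fin M) × (Fin R → Fin b)),
      (∀ t, (z.1 t : ℕ) = arrOf c (o₁ + t) % M) → (∀ t, (z.2 t : ℕ) = arrOf c (o₂ + t) % b) →
      E₀ z →
      (cR Q.P Q.mc (rndOf Q.n Q.P.M Q.P.S Q.Cn Q.P.J (fun i => arrOf c (o₃ + i) % Q.q)) (vis z)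
        hid Q.n 0 (enc κr 0 0) Q.N u v : ℝ) ≤ D + 8 * ε * W + 1 →
      ((rd Q.P Q.mc (rndOf Q.n Q.P.M Q.P.S Q.Cn Q.P.J (fun i => arrOf c (o₃ + i) % Q.q)) (vis z)
        hid Q.n 0 (enc κr 0 0) Q.N).card : ℝ) ≤ 8 * A + 1 → G c) :
    2 * Nat.card (Fin N → Fin e) ≤ 3 * Nat.card {c : Fin N → Fin e // G c} := by
  have k1 : ∀ t : Fin s, o₁ + (t : ℕ) < N := fun t => by have := t.isLt; omega
  have k2 : ∀ t : Fin R, o₂ + (t : ℕ) < N := fun t => by have := t.isLt; omega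
  have k3 : ∀ i : Ix Q.n Q.P.M Q.P.S Q.Cn, o₃ + adr i < N := fun i => by
    have := adr_lt i
    omega
  refine good2_plug hε hQ he hM hb hq hMe hbe hqe (fun t => ⟨o₁ + t, k1 t⟩)
    (fun t => ⟨o₂ + t, k2 t⟩) (fun i => ⟨o₃ + adr i, k3 i⟩) ?_ ?_ ?_ ?_ ?_ ?_ E₀ h₀ vis hid u v D W
    hI G ?_
  · intro t t' h
    have : o₁ + (t : ℕ) = o₁ + t' := Fin.ext_iff.mp h
    exact Fin.ext (by omega)
  · intro t t' h
    have : o₂ + (t : ℕ) = o₂ + t' := Fin.ext_iff.mp h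
    exact Fin.ext (by omega)
  · intro i i' h
    have : o₃ + adr i = o₃ + adr i' := Fin.ext_iff.mp h
    exact adr_injective (by omega)
  · intro t t' h
    have h4 : o₁ + (t : ℕ) = o₂ + t' := Fin.ext_iff.mp h
    have := t.isLt
    omega
  · intro t i h
    have h4 : o₁ + (t : ℕ) = o₃ + adr i := Fin.ext_iff.mp h
    have := t.isLt
    omega
  · intro t i h
    have h4 : o₂ + (t : ℕ) = o₃ + adr i := Fin.ext_iff.mp h
    have := t.isLt
    omega
  · intro c z w e1 e2 e3 hz hv hr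
    have hw : ∀ i, (w i : ℕ) = arrOf c (o₃ + adr i) % Q.q := fun i => by
      rw [e3 i, arrOf_lt c (k3 i)]
    have hR := rndOf_shift (J := Q.P.J) (arrOf c) w hw
    refine hG c z (fun t => ?_) (fun t => ?_) hz ?_ ?_
    · rw [e1 t, arrOf_lt c (k1 t)]
    · rw [e2 t, arrOf_lt c (k2 t)]
    · rw [hR]
      exact hv
    · rw [hR]
      exact hr

end Vale.Agent.P315.H731
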