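import Vale.Agent.P315.H140.Best

/-!
# The algorithm sees the costs only on the admissible mesh steps of its rows

If two leaves `vis`, `vis'` agree on the admissible mesh steps of the rows `< K` (and the same for
`hid`, `hid'`), then the certified costs and the read sets of all regions inside these rows are the
same. The machines are only assumed to look at the unit rows which exist (`LaneRow`).
-/

set_option autoImplicit false

open Finset

namespace Vale.Agent.P315.H731

open Vale.Agent.P315 Vale.Agent.P315.C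

/-- `f` and `f'` agree on the admissible mesh steps of the rows `< K`. -/
def AgreeOn (P : Par) (K : ℕ) (f f' : Leaf) : Prop :=
  ∀ i < K, ∀ p q, H140.Ed P p q → f i p q = f' i p q

/-- A lane depends only on the costs in the unit rows `m < M ^ 2 ^ s` (in the rounds `≤ κ`). -/
def LaneRow (P : Par) (mc : Mach) : Prop :=
  ∀ s q κ j a (D D' : ℕ → ℕ → ℕ → ℕ → ℕ → ℕ) (coin : ℕ → ℕ), s < P.S → 2 ^ s ∣ j → 0 < j →
    (∀ κ' ≤ κ, ∀ m < P.M ^ 2 ^ s, ∀ x u v, D κ' m x u v = D' κ' m x u v) →
    ∀ m < P.M ^ 2 ^ s, mc.lane s q κ j a D coin m = mc.lane s q κ j a D' coin m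

section

variable {P : Par} {mc : Mach} {ω : Rnd} {K : ℕ} {vis vis' hid hid' f f' : Leaf}

theorem AgreeOn.refl (P : Par) (K : ℕ) (f : Leaf) : AgreeOn P K f f := fun _ _ _ _ _ => rfl

theorem AgreeOn.symm (h : AgreeOn P K f f') : AgreeOn P K f' f :=
  fun i hi p q hE => (h i hi p q hE).symm

theorem AgreeOn.trans {f'' : Leaf} (h : AgreeOn P K f f') (h' : AgreeOn P K f' f'') :
    AgreeOn P K f f'' := fun i hi p q hE => (h i hi p q hE).trans (h' i hi p q hE)

theorem AgreeOn.mono {K' : ℕ} (hK : K' ≤ K) (h : AgreeOn P K f f') : AgreeOn P K' f f' :=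
  fun i hi => h i (lt_of_lt_of_le hi hK)

theorem rcost_congr_leaf {i0 m : ℕ} (u v : ℕ) (r : ℕ → ℕ × ℕ) (hr : P.RouteOK m r)
    (h : ∀ i < m, ∀ p q, H140.Ed P p q → f (i0 + i) p q = f' (i0 + i) p q) :
    rcost P.sh m (fun i => f (i0 + i)) u v r = rcost P.sh m (fun i => f' (i0 + i)) u v r := by
  unfold rcost
  congr 1
  refine sum_congr rfl fun i hi => ?_
  have hi' := mem_range.mp hi
  have e := h i hi' _ _ (hr i hi')
  simp only [e]

theorem best_congr_leaf {i0 m : ℕ} (u v : ℕ)
    (h : ∀ i < m, ∀ p q, H140.Ed P p q → f (i0 + i) p q = f' (i0 + i) p q) :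
    best P f i0 m u v = best P f' i0 m u v := by
  unfold best
  congr 1
  ext x
  constructor
  · rintro ⟨r, hr, rfl⟩
    exact ⟨r, hr, rcost_congr_leaf u v r hr h⟩
  · rintro ⟨r, hr, rfl⟩
    exact ⟨r, hr, (rcost_congr_leaf u v r hr h).symm⟩

theorem AgreeOn.known (h : AgreeOn P K vis vis') (h' : AgreeOn P K hid hid')
    (R : Finset (ℕ × ℕ)) : AgreeOn P K (known P vis hid R) (known P vis' hid' R) := by
  intro i hi p q hE
  unfold C.known
  rw [h i hi p q hE, h' i hi p q hE]

/-- Certified costs inside the rows `< K`. -/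
theorem cval_congr_leaf (h : AgreeOn P K vis vis') (h' : AgreeOn P K hid hid')
    (R : Finset (ℕ × ℕ)) {j i : ℕ} (hK : (i + 1) * P.M ^ j ≤ K) (u v : ℕ) :
    cval P vis hid R j i u v = cval P vis' hid' R j i u v := by
  unfold cval
  refine best_congr_leaf u v fun k hk p q hE => h.known h' R _ ?_ p q hE
  calc i * P.M ^ j + k < i * P.M ^ j + P.M ^ j := Nat.add_lt_add_left hk _
    _ = (i + 1) * P.M ^ j := by ring
    _ ≤ K := hK

theorem unit_rows {M j e i m K : ℕ} (he : e ≤ j) (hm : m < M ^ e)
    (hK : (i + 1) * M ^ j ≤ K) : (i * M ^ e + m + 1) * M ^ (j - e) ≤ K := by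
  have h1 : i * M ^ e + m + 1 ≤ (i + 1) * M ^ e := by
    have : (i + 1) * M ^ e = i * M ^ e + M ^ e := by ring
    omega
  calc (i * M ^ e + m + 1) * M ^ (j - e) ≤ ((i + 1) * M ^ e) * M ^ (j - e) :=
        Nat.mul_le_mul_right _ h1
    _ = (i + 1) * M ^ j := by rw [mul_assoc, ← pow_add, Nat.add_sub_cancel' he]
    _ ≤ K := hK

/-- **Read sets** inside the rows `< K`. -/
theorem rd_congr_leaf (hmc : LaneRow P mc) (h : AgreeOn P K vis vis')
    (h' : AgreeOn P K hid hid') (j : ℕ) : ∀ (i a : ℕ) (b : ℤ), (i + 1) * P.M ^ j ≤ K →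
    rd P mc ω vis hid j i a b = rd P mc ω vis' hid' j i a b := by
  induction j using Nat.strong_induction_on with
  | _ j ih =>
    intro i a b hK
    rcases j with _ | j
    · rw [rd_zero, rd_zero]
    · rw [rd_succ, rd_succ]
      unfold stepRead
      congr 1
      · refine biUnion_congr rfl fun m hm => biUnion_congr rfl fun a' _ => ?_
        have hm' := mem_range.mp hm
        refine ih j (by omega) _ _ _ ?_
        have := unit_rows (M := P.M) (j := j + 1) (e := 1) (i := i) (m := m) (by omega)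
          (by rwa [pow_one]) hK
        rwa [pow_one] at this
      · refine biUnion_congr rfl fun s hs => ?_
        obtain ⟨hs1, hs2⟩ := mem_filter.mp hs
        have hsS := mem_range.mp hs1
        have hle : 2 ^ s ≤ j + 1 := Nat.le_of_dvd (by omega) hs2
        have hpos := Nat.one_le_two_pow (n := s)
        have hh : ∀ κ m x u v, m < P.M ^ 2 ^ s →
            hist P ω vis hid (rd P mc ω vis hid) (j + 1) i a s κ m x u v =
              hist P ω vis' hid' (rd P mc ω vis' hid') (j + 1) i a s κ m x u v := by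
          intro κ m x u v hm
          have hr := unit_rows (M := P.M) hle hm hK
          unfold hist
          rw [ih (j + 1 - 2 ^ s) (by omega) _ _ _ hr]
          exact cval_congr_leaf h h' _ hr u v
        have hl : ∀ q κ, ∀ m < P.M ^ 2 ^ s,
            laneOf P mc ω vis hid (rd P mc ω vis hid) (j + 1) i a s q κ m =
              laneOf P mc ω vis' hid' (rd P mc ω vis' hid') (j + 1) i a s q κ m := by
          intro q κ m hm
          unfold laneOf
          exact hmc s q κ (j + 1) a _ _ _ hsS hs2 (by omega)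
            (fun κ' _ m' hm' x u v => hh κ' m' x u v hm') m hm
        refine biUnion_congr rfl fun q _ => biUnion_congr rfl fun κ _ =>
          biUnion_congr rfl fun m hm => ?_
        have hm' := mem_range.mp hm
        rw [hl q κ m hm']
        exact ih (j + 1 - 2 ^ s) (by omega) _ _ _ (unit_rows (M := P.M) hle hm' hK)

/-- Certified costs of the regions inside the rows `< K`. -/
theorem cR_congr_leaf (hmc : LaneRow P mc) (h : AgreeOn P K vis vis')
    (h' : AgreeOn P K hid hid') {j i : ℕ} (a : ℕ) (b : ℤ) (u v : ℕ)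
    (hK : (i + 1) * P.M ^ j ≤ K) :
    cR P mc ω vis hid j i a b u v = cR P mc ω vis' hid' j i a b u v := by
  unfold cR
  rw [rd_congr_leaf hmc h h' j i a b hK]
  exact cval_congr_leaf h h' _ hK u v

/-! ### The root -/

theorem root_cval_congr {n : ℕ} (h : AgreeOn P (P.M ^ n) vis vis')
    (h' : AgreeOn P (P.M ^ n) hid hid') (R : Finset (ℕ × ℕ)) (u v : ℕ) :
    cval P vis hid R n 0 u v = cval P vis' hid' R n 0 u v :=
  cval_congr_leaf h h' R (by rw [Nat.zero_add, Nat.one_mul]) u v

theorem root_rd_congr {n : ℕ} (hmc : LaneRow P mc) (h : AgreeOn P (P.M ^ n) vis vis')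
    (h' : AgreeOn P (P.M ^ n) hid hid') (a : ℕ) (b : ℤ) :
    rd P mc ω vis hid n 0 a b = rd P mc ω vis' hid' n 0 a b :=
  rd_congr_leaf hmc h h' n 0 a b (by rw [Nat.zero_add, Nat.one_mul])

theorem root_cR_congr {n : ℕ} (hmc : LaneRow P mc) (h : AgreeOn P (P.M ^ n) vis vis')
    (h' : AgreeOn P (P.M ^ n) hid hid') (a : ℕ) (b : ℤ) (u v : ℕ) :
    cR P mc ω vis hid n 0 a b u v = cR P mc ω vis' hid' n 0 a b u v :=
  cR_congr_leaf hmc h h' a b u v (by rw [Nat.zero_add, Nat.one_mul])

/-- Values read from a table on the admissible mesh steps of the rows `< K`, and `vis` elsewhere: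
a leaf which is everywhere as good as `vis`. -/
theorem agreeOn_of_table (tab : Leaf) (h : ∀ i < K, ∀ p q, H140.Ed P p q → tab i p q = vis i p q) :
    AgreeOn P K tab vis := h

end

end Vale.Agent.P315.H731
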