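import Mathlib

/-! Finite probability: averages over a finite type, and averages over families of independent
uniform coins (resampling, independence, second moments, Markov). -/

set_option autoImplicit false

open Finset

namespace Vale.Agent.P315.H731

/-! ### Averages over a finite type -/

section Basic

variable {Ω Ω' : Type*} [Fintype Ω] [Fintype Ω']

/-- Average over a finite type. -/
noncomputable def av (f : Ω → ℝ) : ℝ := (∑ c, f c) / Fintype.card Ω

theorem av_add (f g : Ω → ℝ) : av (fun c => f c + g c) = av f + av g := by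
  simp only [av, sum_add_distrib, add_div]

theorem av_sub (f g : Ω → ℝ) : av (fun c => f c - g c) = av f - av g := by
  simp only [av, sum_sub_distrib, sub_div]

theorem av_neg (f : Ω → ℝ) : av (fun c => - f c) = - av f := by
  simp only [av, sum_neg_distrib, neg_div]

theorem av_const_mul (a : ℝ) (f : Ω → ℝ) : av (fun c => a * f c) = a * av f := by
  simp only [av, ← mul_sum, mul_div_assoc]

theorem av_mul_const (f : Ω → ℝ) (a : ℝ) : av (fun c => f c * a) = av f * a := by
  simp only [av, ← sum_mul]; ring

theorem av_div_const (f : Ω → ℝ) (a : ℝ) : av (fun c => f c / a) = av f / a := by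
  simp only [div_eq_mul_inv]; exact av_mul_const f _

theorem av_sum {β : Type*} (s : Finset β) (f : β → Ω → ℝ) :
    av (fun c => ∑ b ∈ s, f b c) = ∑ b ∈ s, av (f b) := by
  simp only [av]
  rw [sum_comm, sum_div]

theorem av_zero : av (fun _ : Ω => (0 : ℝ)) = 0 := by simp [av]

theorem card_pos' [Nonempty Ω] : (0 : ℝ) < Fintype.card Ω := by
  exact_mod_cast Fintype.card_pos

theorem av_const [Nonempty Ω] (a : ℝ) : av (fun _ : Ω => a) = a := by
  have := card_pos' (Ω := Ω)
  simp only [av, sum_const, card_univ, nsmul_eq_mul]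
  field_simp

theorem av_mono {f g : Ω → ℝ} (h : ∀ c, f c ≤ g c) : av f ≤ av g :=
  div_le_div_of_nonneg_right (sum_le_sum fun c _ => h c) (Nat.cast_nonneg _)

theorem av_nonneg {f : Ω → ℝ} (h : ∀ c, 0 ≤ f c) : 0 ≤ av f :=
  div_nonneg (sum_nonneg fun c _ => h c) (Nat.cast_nonneg _)

theorem av_le [Nonempty Ω] {f : Ω → ℝ} {a : ℝ} (h : ∀ c, f c ≤ a) : av f ≤ a :=
  (av_mono h).trans (av_const a).le

theorem le_av [Nonempty Ω] {f : Ω → ℝ} {a : ℝ} (h : ∀ c, a ≤ f c) : a ≤ av f :=
  (av_const a).ge.trans (av_mono h)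

theorem av_congr {f g : Ω → ℝ} (h : ∀ c, f c = g c) : av f = av g := by
  rw [funext h]

theorem exists_le_av [Nonempty Ω] (f : Ω → ℝ) : ∃ c, f c ≤ av f := by
  by_contra hc
  push Not at hc
  have h1 : (∑ _c : Ω, av f) < ∑ c, f c := sum_lt_sum_of_nonempty univ_nonempty fun c _ => hc c
  have h2 := card_pos' (Ω := Ω)
  simp only [sum_const, card_univ, nsmul_eq_mul] at h1
  have h3 : (Fintype.card Ω : ℝ) * av f = ∑ c, f c := by
    unfold av; field_simp
  linarith

theorem exists_ge_av [Nonempty Ω] (f : Ω → ℝ) : ∃ c, av f ≤ f c := by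
  obtain ⟨c, hc⟩ := exists_le_av (fun c => - f c)
  rw [av_neg] at hc
  exact ⟨c, by linarith⟩

theorem av_equiv (e : Ω ≃ Ω') (f : Ω' → ℝ) : av (fun c => f (e c)) = av f := by
  unfold av
  rw [Equiv.sum_comp e f, Fintype.card_congr e]

theorem av_prod (f : Ω × Ω' → ℝ) : av f = av (fun c => av (fun d => f (c, d))) := by
  unfold av
  rw [Fintype.sum_prod_type, Fintype.card_prod]
  simp only [← sum_div]
  push_cast
  rw [div_div, mul_comm]

theorem av_prod' (f : Ω → Ω' → ℝ) : av (fun p : Ω × Ω' => f p.1 p.2) =
    av (fun c => av (fun d => f c d)) := av_prod _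

theorem av_comm (f : Ω → Ω' → ℝ) : av (fun c => av (fun d => f c d)) =
    av (fun d => av (fun c => f c d)) := by
  rw [← av_prod', ← av_prod', ← av_equiv (Equiv.prodComm Ω Ω')]
  rfl

theorem av_fst [Nonempty Ω'] (f : Ω → ℝ) : av (fun p : Ω × Ω' => f p.1) = av f := by
  rw [av_prod]
  exact av_congr fun c => av_const (Ω := Ω') (f c)

theorem av_snd [Nonempty Ω] (g : Ω' → ℝ) : av (fun p : Ω × Ω' => g p.2) = av g := by
  rw [av_prod]
  exact av_const (Ω := Ω) (av g)

/-- Average of an indicator. -/
theorem av_ind (P : Ω → Prop) [DecidablePred P] : av (fun c => if P c then (1 : ℝ) else 0) =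
    ((univ.filter P).card : ℝ) / Fintype.card Ω := by
  simp only [av, sum_boole]

/-- Markov: if `X ≥ 0` then at most a share `av X / a` of the points has `a ≤ X`. -/
theorem markov {X : Ω → ℝ} (hX : ∀ c, 0 ≤ X c) (a : ℝ) (P : Ω → Prop) [DecidablePred P]
    (hP : ∀ c, P c → a ≤ X c) : a * av (fun c => if P c then (1 : ℝ) else 0) ≤ av X := by
  rw [← av_const_mul]
  apply av_mono
  intro c
  split_ifs with h
  · simpa using hP c h
  · simpa using hX c

/-- Part of the average above a threshold, by the second moment. -/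
theorem av_tail_sq {X : Ω → ℝ} {a : ℝ} (ha : 0 < a) :
    av (fun c => if a ≤ X c then X c else 0) ≤ av (fun c => X c ^ 2) / a := by
  rw [← av_div_const]
  apply av_mono
  intro c
  split_ifs with h
  · rw [le_div_iff₀ ha]; nlinarith
  · positivity

end Basic

/-! ### Independent uniform coins -/

section Coins

variable {ι : Type*} [Fintype ι] [DecidableEq ι] {A : ι → Type*} [∀ i, Fintype (A i)]

/-- Exchange of the coordinates in `S` between two points. -/
def swapOn (S : Finset ι) : ((∀ i, A i) × (∀ i, A i)) ≃ ((∀ i, A i) × (∀ i, A i)) where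
  toFun p := (S.piecewise p.2 p.1, S.piecewise p.1 p.2)
  invFun p := (S.piecewise p.2 p.1, S.piecewise p.1 p.2)
  left_inv p := by
    ext i <;> by_cases h : i ∈ S <;> simp [h]
  right_inv p := by
    ext i <;> by_cases h : i ∈ S <;> simp [h]

/-- Resampling of the coordinates in `S`. -/
theorem av_resample_set [∀ i, Nonempty (A i)] (S : Finset ι) (f : (∀ i, A i) → ℝ) :
    av (fun c => av (fun d => f (S.piecewise d c))) = av f := by
  rw [← av_prod' (fun c d => f (S.piecewise d c))]
  rw [← av_fst (Ω' := ∀ i, A i) f]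
  exact av_equiv (swapOn S) (fun p => f p.1)

/-- One coordinate is uniform. -/
theorem av_eval [∀ i, Nonempty (A i)] (i : ι) (g : A i → ℝ) :
    av (fun c : ∀ j, A j => g (c i)) = av g := by
  have h := av_equiv (Equiv.piSplitAt i A) (fun p => g p.1)
  have h2 : av (fun c : ∀ j, A j => g (c i)) = av (fun c => g ((Equiv.piSplitAt i A) c).1) := by
    apply av_congr; intro c; simp
  rw [h2, h]
  exact av_fst g

/-- Resampling of one coordinate. -/
theorem av_resample [∀ i, Nonempty (A i)] (i : ι) (f : (∀ j, A j) → ℝ) :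
    av (fun c => av (fun x : A i => f (Function.update c i x))) = av f := by
  rw [← av_resample_set {i} f]
  apply av_congr
  intro c
  have : ∀ d : ∀ j, A j, f (({i} : Finset ι).piecewise d c) = f (Function.update c i (d i)) := by
    intro d
    rw [Finset.piecewise_singleton]
  rw [av_congr this]
  exact (av_eval i (fun x => f (Function.update c i x))).symm

/-- A fresh coin may be averaged first: if for every values of the other coins the average over
coin `i` of `f` is at most that of `g`, then `av f ≤ av g`. -/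
theorem av_le_of_resample [∀ i, Nonempty (A i)] (i : ι) {f g : (∀ j, A j) → ℝ}
    (h : ∀ c, av (fun x : A i => f (Function.update c i x)) ≤
      av (fun x : A i => g (Function.update c i x))) : av f ≤ av g := by
  rw [← av_resample i f, ← av_resample i g]
  exact av_mono h

theorem av_le_of_resample' [∀ i, Nonempty (A i)] (i : ι) {f g : (∀ j, A j) → ℝ}
    (h : ∀ c, av (fun x : A i => f (Function.update c i x)) ≤ g c) : av f ≤ av g := by
  rw [← av_resample i f]
  exact av_mono h

/-- Independence: functions of disjoint sets of coins are uncorrelated. -/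
theorem av_mul_of_disjoint [∀ i, Nonempty (A i)] {f g : (∀ j, A j) → ℝ} {S T : Set ι}
    (hf : DependsOn f S) (hg : DependsOn g T) (hST : Disjoint S T) :
    av (fun c => f c * g c) = av f * av g := by
  classical
  set S' : Finset ι := univ.filter fun i => i ∈ S with hS'
  have key : ∀ p : (∀ i, A i) × (∀ i, A i),
      f (swapOn S' p).1 * g (swapOn S' p).1 = f p.2 * g p.1 := by
    intro p
    have e1 : f (swapOn S' p).1 = f p.2 := by
      apply hf
      intro i hi
      have : i ∈ S' := by rw [hS']; simp [hi]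
      simp [swapOn, this]
    have e2 : g (swapOn S' p).1 = g p.1 := by
      apply hg
      intro i hi
      have : i ∉ S' := by
        rw [hS']; simp only [mem_filter, mem_univ, true_and]
        intro hs
        exact (Set.disjoint_left.mp hST hs) hi
      simp [swapOn, this]
    rw [e1, e2]
  calc av (fun c => f c * g c)
      = av (fun p : (∀ i, A i) × (∀ i, A i) => f p.1 * g p.1) :=
        (av_fst (fun c => f c * g c)).symm
    _ = av (fun p : (∀ i, A i) × (∀ i, A i) => f (swapOn S' p).1 * g (swapOn S' p).1) :=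
        (av_equiv (swapOn S') (fun p => f p.1 * g p.1)).symm
    _ = av (fun p : (∀ i, A i) × (∀ i, A i) => f p.2 * g p.1) := av_congr key
    _ = av f * av g := by
        rw [av_prod' (fun c d => f d * g c)]
        simp only [av_mul_const, av_const_mul]

/-- Conditional form of independence: `f` depends on the coins in `S`; then the coins outside `S`
may be resampled in the other factor. -/
theorem av_mul_resample [∀ i, Nonempty (A i)] {f : (∀ j, A j) → ℝ} (S : Finset ι)
    (hf : DependsOn f ((Sᶜ : Finset ι) : Set ι)) (g : (∀ j, A j) → ℝ) :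
    av (fun c => f c * g c) = av (fun c => f c * av (fun d => g (S.piecewise d c))) := by
  rw [← av_resample_set S (fun c => f c * g c)]
  apply av_congr
  intro c
  rw [← av_const_mul]
  apply av_congr
  intro d
  have : f (S.piecewise d c) = f c := by
    apply hf
    intro i hi
    have : i ∉ S := by simpa using hi
    simp [this]
  rw [this]

/-- Two different coordinates are independent. -/
theorem av_eval₂ [∀ i, Nonempty (A i)] {i j : ι} (hij : i ≠ j) (g : A i → A j → ℝ) :
    av (fun c : ∀ k, A k => g (c i) (c j)) = av (fun x => av (fun y => g x y)) := by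
  rw [← av_resample j (fun c : ∀ k, A k => g (c i) (c j))]
  have : ∀ c : ∀ k, A k, av (fun x : A j => g (Function.update c j x i) (Function.update c j x j))
      = (fun x => av (fun y => g x y)) (c i) := by
    intro c
    apply av_congr
    intro x
    rw [Function.update_self, Function.update_of_ne hij]
  rw [av_congr this]
  exact av_eval i (fun x => av (fun y => g x y))

end Coins

/-! ### Second moment of an average of shifted masses -/

section Shift

variable {ι X β : Type*} [Fintype ι] [DecidableEq ι] [Nonempty ι] [Fintype X] [Nonempty X]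

/-- Masses `m i x b ≥ 0` (mass of child `i` at index `b` if its jitter is `x`), of total at most
`1` over the indices in `B`, and such that every index receives mass at most `1` over all
jitters. Then the average over the children has small second moment. -/
theorem second_moment (B : Finset β) (m : ι → X → β → ℝ) (h0 : ∀ i x b, 0 ≤ m i x b)
    (h1 : ∀ i x, ∑ b ∈ B, m i x b ≤ 1) (h2 : ∀ i, ∀ b ∈ B, ∑ x, m i x b ≤ 1) :
    av (fun ξ : ι → X => ∑ b ∈ B, ((∑ i, m i (ξ i) b) / Fintype.card ι) ^ 2) ≤
      1 / Fintype.card ι + 1 / Fintype.card X := by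
  have hM := card_pos' (Ω := ι)
  have hX := card_pos' (Ω := X)
  have hle1 : ∀ i x, ∀ b ∈ B, m i x b ≤ 1 := fun i x b hb =>
    (single_le_sum (f := fun b => m i x b) (fun b _ => h0 i x b) hb).trans (h1 i x)
  have hdiag : ∀ i, av (fun ξ : ι → X => ∑ b ∈ B, m i (ξ i) b * m i (ξ i) b) ≤ 1 := by
    intro i
    apply av_le
    intro ξ
    refine (sum_le_sum fun b hb => ?_).trans (h1 i (ξ i))
    have := hle1 i (ξ i) b hb
    nlinarith [h0 i (ξ i) b]
  have hoff : ∀ i j, i ≠ j → av (fun ξ : ι → X => ∑ b ∈ B, m i (ξ i) b * m j (ξ j) b) ≤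
      1 / Fintype.card X := by
    intro i j hij
    rw [av_eval₂ (A := fun _ : ι => X) hij.symm (fun y x => ∑ b ∈ B, m i x b * m j y b)]
    apply av_le
    intro y
    rw [av_sum]
    have : ∀ b ∈ B, av (fun x => m i x b * m j y b) ≤ (1 / Fintype.card X) * m j y b := by
      intro b hb
      rw [av_mul_const]
      apply mul_le_mul_of_nonneg_right _ (h0 j y b)
      exact div_le_div_of_nonneg_right (h2 i b hb) hX.le
    refine (sum_le_sum this).trans ?_
    rw [← mul_sum]
    calc (1 / (Fintype.card X : ℝ)) * ∑ b ∈ B, m j y b ≤ (1 / Fintype.card X) * 1 :=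
          mul_le_mul_of_nonneg_left (h1 j y) (by positivity)
      _ = _ := mul_one _
  have hexp : ∀ ξ : ι → X, ∑ b ∈ B, ((∑ i, m i (ξ i) b) / Fintype.card ι) ^ 2 =
      (∑ i, ∑ j, ∑ b ∈ B, m i (ξ i) b * m j (ξ j) b) / (Fintype.card ι : ℝ) ^ 2 := by
    intro ξ
    have : ∀ b ∈ B, ((∑ i, m i (ξ i) b) / (Fintype.card ι : ℝ)) ^ 2 =
        ∑ i, ∑ j, m i (ξ i) b * m j (ξ j) b / (Fintype.card ι : ℝ) ^ 2 := by
      intro b _
      rw [div_pow, sq (∑ i, m i (ξ i) b), sum_mul_sum, sum_div]
      simp_rw [sum_div]
    rw [sum_congr rfl this, sum_comm, sum_div]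
    apply sum_congr rfl
    intro i _
    rw [sum_comm, sum_div]
    apply sum_congr rfl
    intro j _
    rw [sum_div]
  rw [av_congr hexp, av_div_const, av_sum]
  have hrow : ∀ i, av (fun ξ : ι → X => ∑ j, ∑ b ∈ B, m i (ξ i) b * m j (ξ j) b) ≤
      1 + (Fintype.card ι) * (1 / Fintype.card X) := by
    intro i
    rw [av_sum, ← add_sum_erase _ _ (mem_univ i)]
    apply add_le_add (hdiag i)
    calc ∑ j ∈ univ.erase i, av (fun ξ : ι → X => ∑ b ∈ B, m i (ξ i) b * m j (ξ j) b)
        ≤ ∑ j ∈ univ.erase i, 1 / (Fintype.card X : ℝ) := sum_le_sum fun j hj =>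
          hoff i j (ne_of_mem_erase hj).symm
      _ ≤ ∑ j : ι, 1 / (Fintype.card X : ℝ) := sum_le_sum_of_subset_of_nonneg
          (erase_subset _ _) (fun _ _ _ => by positivity)
      _ = _ := by rw [sum_const, card_univ, nsmul_eq_mul]
  rw [div_le_iff₀ (by positivity)]
  calc ∑ i, av (fun ξ : ι → X => ∑ j, ∑ b ∈ B, m i (ξ i) b * m j (ξ j) b)
      ≤ ∑ i : ι, (1 + (Fintype.card ι) * (1 / (Fintype.card X : ℝ))) :=
        sum_le_sum fun i _ => hrow i
    _ = (1 / Fintype.card ι + 1 / Fintype.card X) * (Fintype.card ι : ℝ) ^ 2 := by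
        rw [sum_const, card_univ, nsmul_eq_mul]
        field_simp

/-- The part of the average above a threshold. -/
theorem atoms (B : Finset β) (m : ι → X → β → ℝ) (h0 : ∀ i x b, 0 ≤ m i x b)
    (h1 : ∀ i x, ∑ b ∈ B, m i x b ≤ 1) (h2 : ∀ i, ∀ b ∈ B, ∑ x, m i x b ≤ 1) {a : ℝ}
    (ha : 0 < a) :
    av (fun ξ : ι → X => ∑ b ∈ B, (if a ≤ (∑ i, m i (ξ i) b) / Fintype.card ι then
      (∑ i, m i (ξ i) b) / Fintype.card ι else 0)) ≤
      (1 / Fintype.card ι + 1 / Fintype.card X) / a := by
  have h := second_moment B m h0 h1 h2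
  refine le_trans ?_ (div_le_div_of_nonneg_right h ha.le)
  rw [← av_div_const]
  apply av_mono
  intro ξ
  rw [sum_div]
  apply sum_le_sum
  intro b _
  split_ifs with hb
  · rw [le_div_iff₀ ha]; nlinarith
  · positivity

end Shift

end Vale.Agent.P315.H731
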