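import Vale.Agent.P315.H731.VisTab
import Vale.Agent.P315.H873.MulF
import Vale.Agent.P315.H486.Bridge2
import Vale.Agent.P315.H207.M2Link
import Vale.Agent.P315.H54.GoodOne
import Vale.Agent.P315.H142.VisJoint

/-!
# The feed of the main program of milestone 2

`fd c q cb N₀ x y a`: the feed for the seeds `a`. The twelve numbers, the seeds and the visible
costs which the strategy of `H207.M2` reads in it; read sets and certified costs of the strategy
are those for the visible costs `H54.visC`.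
-/

set_option autoImplicit false

namespace Vale.Agent.P315.H731

open Vale.Agent.P315 Vale.Agent.P315.C Vale.Agent.P315.H36 Vale.Agent.P315.H54
open Vale.Agent.P315.H608 Vale.Agent.P315.H873 Vale.Agent.P315.H933 Vale.Agent.P315.H155
open Vale.Agent.P315.H95 (clsPar)
open Vale.Agent.P315.H659 (nSeed rndOf arrOf)
open Vale.Agent.P315.RAM (len2)
open Vale.Agent.P315.H207.M2 (fvis rndF)

section

variable (c : Cst2) (q cb N₀ : ℕ) (x y : List ℕ) (a : ℕ → ℕ)

/-- The feed of the main program for the seeds `a`. -/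
noncomputable def fd : List ℕ :=
  (mulF c q cb N₀).feed (visG (GF c q) x y) (len2 x y) a

theorem fd_lt {i : ℕ} (hi : i < 12) :
    (fd c q cb N₀ x y a).getD i 0 = ((mulF c q cb N₀).pfx (len2 x y)).getD i 0 :=
  H486.MulF.feed_pre (F := mulF c q cb N₀) a hi

/-! ### The twelve numbers -/

theorem fd_n : (fd c q cb N₀ x y a).getD 0 0 = c.L (gp c q (len2 x y)) :=
  (fd_lt c q cb N₀ x y a (by norm_num)).trans rfl

theorem fd_S : (fd c q cb N₀ x y a).getD 1 0 = c.S (gp c q (len2 x y)) :=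
  (fd_lt c q cb N₀ x y a (by norm_num)).trans rfl

theorem fd_mu : (fd c q cb N₀ x y a).getD 2 0 = c.μ2 (sl (len2 x y)) (gp c q (len2 x y)) :=
  (fd_lt c q cb N₀ x y a (by norm_num)).trans rfl

theorem fd_l : (fd c q cb N₀ x y a).getD 3 0 = c.ℓ2 (sl (len2 x y)) (gp c q (len2 x y)) :=
  (fd_lt c q cb N₀ x y a (by norm_num)).trans rfl

theorem fd_w : (fd c q cb N₀ x y a).getD 4 0 = c.w0 (sl (len2 x y)) (gp c q (len2 x y)) :=
  (fd_lt c q cb N₀ x y a (by norm_num)).trans rfl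

theorem fd_Kc : (fd c q cb N₀ x y a).getD 5 0 = c.Kc (gp c q (len2 x y)) :=
  (fd_lt c q cb N₀ x y a (by norm_num)).trans rfl

theorem fd_kr : (fd c q cb N₀ x y a).getD 6 0 = c.Kc (gp c q (len2 x y)) :=
  (fd_lt c q cb N₀ x y a (by norm_num)).trans rfl

theorem fd_B : (fd c q cb N₀ x y a).getD 7 0 = c.B2 (sl (len2 x y)) (gp c q (len2 x y)) :=
  (fd_lt c q cb N₀ x y a (by norm_num)).trans rfl

theorem fd_c0 : (fd c q cb N₀ x y a).getD 8 0 = c.c0 (sl (len2 x y)) (gp c q (len2 x y)) :=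
  (fd_lt c q cb N₀ x y a (by norm_num)).trans rfl

theorem fd_pe : (fd c q cb N₀ x y a).getD 9 0 = pe2 c q (len2 x y) :=
  (fd_lt c q cb N₀ x y a (by norm_num)).trans rfl

theorem fd_D : (fd c q cb N₀ x y a).getD 10 0 = c.D2 (gp c q (len2 x y)) :=
  (fd_lt c q cb N₀ x y a (by norm_num)).trans rfl

theorem fd_N : (fd c q cb N₀ x y a).getD 11 0 = c.Nu2 (gp c q (len2 x y)) :=
  (fd_lt c q cb N₀ x y a (by norm_num)).trans rfl

/-! ### Seeds and table -/

theorem fd_seed {r : ℕ} (hr : r < c.Nu2 (gp c q (len2 x y))) :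
    H207.M2.sd (fd c q cb N₀ x y a) r = a r :=
  H486.MulF.feed_seed (F := mulF c q cb N₀) a hr

theorem fd_vs (r : ℕ) : H207.M2.vs (fd c q cb N₀ x y a) r =
    (visG (GF c q) x y (H486.MulF.sdL (c.Nu2 (gp c q (len2 x y))) ((GF c q).nSd (len2 x y)) a)).getD
      r 0 := by
  unfold H207.M2.vs H207.M2.fNs
  rw [fd_N]
  exact H486.MulF.feed_vis (F := mulF c q cb N₀) a r

theorem length_fd : (fd c q cb N₀ x y a).length =
    12 + c.Nu2 (gp c q (len2 x y)) + c.NV (sl (len2 x y)) (gp c q (len2 x y)) := by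
  unfold fd
  rw [H486.MulF.length_feed (F := mulF c q cb N₀) (by rw [length_visG, mulF_NV])]
  rfl

theorem fd_fvis (i p p' : ℕ) : fvis (fd c q cb N₀ x y a) i p p' =
    (visG (GF c q) x y (H486.MulF.sdL (c.Nu2 (gp c q (len2 x y)))
      ((GF c q).nSd (len2 x y)) a)).getD
      ((i * c.nS (sl (len2 x y)) (gp c q (len2 x y)) +
        p / c.μ2 (sl (len2 x y)) (gp c q (len2 x y))) * c.nE (sl (len2 x y)) (gp c q (len2 x y)) +
        (p' + c.ℓh (sl (len2 x y)) (gp c q (len2 x y)) - p) /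
          c.μ2 (sl (len2 x y)) (gp c q (len2 x y))) 0 := by
  unfold H207.M2.fvis
  rw [fd_vs]
  unfold H207.M2.fB H207.M2.fμ H207.M2.fℓ
  rw [fd_B, fd_mu, fd_l, Cst2.ℓ2_div_two]
  rfl

/-- **The table in the feed is `visC` on the mesh steps.** -/
theorem agree_fd {m w0 J S H Kc D1 K e : ℕ} (hK : K ≤ c.K (gp c q (len2 x y)))
    (cc : Fin (c.Nu2 (gp c q (len2 x y)) + (GF c q).nSd (len2 x y)) → Fin e) :
    AgreeOn (clsPar m (c.ℓ2 (sl (len2 x y)) (gp c q (len2 x y)))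
        (c.μ2 (sl (len2 x y)) (gp c q (len2 x y))) (c.B2 (sl (len2 x y)) (gp c q (len2 x y)))
        w0 J S H Kc D1) K (fvis (fd c q cb N₀ x y (arrOf cc)))
      (visC ((GF c q).q (len2 x y)) x y (c.ℓh (sl (len2 x y)) (gp c q (len2 x y)))
        (c.c0 (sl (len2 x y)) (gp c q (len2 x y))) cc (c.Nu2 (gp c q (len2 x y)))) := by
  rintro i hi p p' ⟨hp, hp', hpB, -, had⟩
  have had' : Nat.dist p p' ≤ c.ℓ2 (sl (len2 x y)) (gp c q (len2 x y)) / 2 := had
  rw [Cst2.ℓ2_div_two] at had'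
  have hdist : p ≤ p' + c.ℓh (sl (len2 x y)) (gp c q (len2 x y)) ∧
      p' ≤ p + c.ℓh (sl (len2 x y)) (gp c q (len2 x y)) := by
    unfold Nat.dist at had'
    omega
  rw [fd_fvis, ← GF_nE]
  refine H142.getD_visG (G := GF c q) (x := x) (y := y) cc le_rfl ?_ ?_ ?_ hp hp' ?_ hdist.1
    hdist.2
  · exact Cst2.μ2_dvd_ℓh _ _
  · exact Nat.lt_succ_self _
  · exact lt_of_lt_of_le hi hK
  · exact Nat.lt_succ_of_le (Nat.div_le_div_right hpB)

/-- **The random data in the feed.** -/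
theorem rndF_fd {m k : ℕ} (h : nSeed (c.L (gp c q (len2 x y))) (2 ^ (20 * m))
      (c.S (gp c q (len2 x y)) + 1) (2 ^ (4 * m * 2 ^ c.S (gp c q (len2 x y)))) ≤
      c.Nu2 (gp c q (len2 x y))) (ℓ : ℕ) :
    rndF m k (c.L (gp c q (len2 x y))) (c.S (gp c q (len2 x y))) ℓ (fd c q cb N₀ x y a) =
      rndOf (c.L (gp c q (len2 x y))) (2 ^ (20 * m)) (c.S (gp c q (len2 x y)) + 1)
        (2 ^ (4 * m * 2 ^ c.S (gp c q (len2 x y)))) (2 ^ k - 1)
        (fun i => a i % 2 ^ (k + 270 * m * 2 ^ c.S (gp c q (len2 x y)) + Nat.log 2 ℓ + 1)) := by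
  unfold H207.M2.rndF
  refine H486.rndOf_congr fun i hi => ?_
  rw [fd_seed c q cb N₀ x y a (lt_of_lt_of_le hi h)]

end

/-- The seeds fit. -/
theorem nSeed_le_Nu2 (c : Cst2) {m : ℕ} (hb : c.bm = 20 * m) (hms : c.ms = 4 * m) (g : ℕ) :
    nSeed (c.L g) (2 ^ (20 * m)) (c.S g + 1) (2 ^ (4 * m * 2 ^ c.S g)) ≤ c.Nu2 g := by
  refine le_of_eq ?_
  have h1 : c.M = 2 ^ (20 * m) := by rw [c.hbm, hb]
  have h2 : c.Cn g = 2 ^ (4 * m * 2 ^ c.S g) := by
    show 2 ^ (c.ms * 2 ^ c.S g) = _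
    rw [hms]
  unfold Cst2.Nu2 nSeed
  rw [h1, h2, Nat.mul_assoc]

/-! ### Read sets and certified costs -/

section

variable {c : Cst2} {q cb N₀ : ℕ} {x y : List ℕ} {m k cd D1 w0 Kc κr : ℕ} {ω : Rnd}

/-- **The read set of the root** for the visible costs in the feed. -/
theorem rd_fd (hb : c.bm = 20 * m) {e : ℕ}
    (cc : Fin (c.Nu2 (gp c q (len2 x y)) + (GF c q).nSd (len2 x y)) → Fin e) (hid : Leaf)
    (b : ℕ) (z : ℤ) :
    rd (fam2 m k cd D1 (c.L (gp c q (len2 x y))) (c.S (gp c q (len2 x y)))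
        (c.ℓ2 (sl (len2 x y)) (gp c q (len2 x y))) (c.μ2 (sl (len2 x y)) (gp c q (len2 x y)))
        (c.B2 (sl (len2 x y)) (gp c q (len2 x y))) w0 Kc κr).P
      (fam2 m k cd D1 (c.L (gp c q (len2 x y))) (c.S (gp c q (len2 x y)))
        (c.ℓ2 (sl (len2 x y)) (gp c q (len2 x y))) (c.μ2 (sl (len2 x y)) (gp c q (len2 x y)))
        (c.B2 (sl (len2 x y)) (gp c q (len2 x y))) w0 Kc κr).mc ω
      (fvis (fd c q cb N₀ x y (arrOf cc))) hid (c.L (gp c q (len2 x y))) 0 b z =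
    rd (fam2 m k cd D1 (c.L (gp c q (len2 x y))) (c.S (gp c q (len2 x y)))
        (c.ℓ2 (sl (len2 x y)) (gp c q (len2 x y))) (c.μ2 (sl (len2 x y)) (gp c q (len2 x y)))
        (c.B2 (sl (len2 x y)) (gp c q (len2 x y))) w0 Kc κr).P
      (fam2 m k cd D1 (c.L (gp c q (len2 x y))) (c.S (gp c q (len2 x y)))
        (c.ℓ2 (sl (len2 x y)) (gp c q (len2 x y))) (c.μ2 (sl (len2 x y)) (gp c q (len2 x y)))
        (c.B2 (sl (len2 x y)) (gp c q (len2 x y))) w0 Kc κr).mc ω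
      (visC ((GF c q).q (len2 x y)) x y (c.ℓh (sl (len2 x y)) (gp c q (len2 x y)))
        (c.c0 (sl (len2 x y)) (gp c q (len2 x y))) cc (c.Nu2 (gp c q (len2 x y)))) hid
      (c.L (gp c q (len2 x y))) 0 b z := by
  refine root_rd_congr (laneRow_machW _ (fun _ _ => H763.labL_ne _ _ _ _) _ _ _ _ _ _ _ _ _ _)
    ?_ (AgreeOn.refl _ _ _) b z
  refine agree_fd c q cb N₀ x y ?_ cc
  rw [Cst2.K_eq', hb]
  exact le_rfl

/-- **The certified cost of the root** for the visible costs in the feed. -/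
theorem cval_fd (hb : c.bm = 20 * m) {e : ℕ}
    (cc : Fin (c.Nu2 (gp c q (len2 x y)) + (GF c q).nSd (len2 x y)) → Fin e) (hid : Leaf)
    (R : Finset (ℕ × ℕ)) (u v : ℕ) :
    cval (fam2 m k cd D1 (c.L (gp c q (len2 x y))) (c.S (gp c q (len2 x y)))
        (c.ℓ2 (sl (len2 x y)) (gp c q (len2 x y))) (c.μ2 (sl (len2 x y)) (gp c q (len2 x y)))
        (c.B2 (sl (len2 x y)) (gp c q (len2 x y))) w0 Kc κr).P
      (fvis (fd c q cb N₀ x y (arrOf cc))) hid R (c.L (gp c q (len2 x y))) 0 u v =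
    cval (fam2 m k cd D1 (c.L (gp c q (len2 x y))) (c.S (gp c q (len2 x y)))
        (c.ℓ2 (sl (len2 x y)) (gp c q (len2 x y))) (c.μ2 (sl (len2 x y)) (gp c q (len2 x y)))
        (c.B2 (sl (len2 x y)) (gp c q (len2 x y))) w0 Kc κr).P
      (visC ((GF c q).q (len2 x y)) x y (c.ℓh (sl (len2 x y)) (gp c q (len2 x y)))
        (c.c0 (sl (len2 x y)) (gp c q (len2 x y))) cc (c.Nu2 (gp c q (len2 x y)))) hid R
      (c.L (gp c q (len2 x y))) 0 u v := by
  refine root_cval_congr ?_ (AgreeOn.refl _ _ _) R u v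
  refine agree_fd c q cb N₀ x y ?_ cc
  rw [Cst2.K_eq', hb]
  exact le_rfl

end

end Vale.Agent.P315.H731
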