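import Vale.Agent.P315.H731.Seeds
import Vale.Agent.P315.H873.Glue2

/-!
# Two independent vectors of seeds: conditional Markov inequality

`z = r₁ c` are the seeds of the first phase, `w = r₂ c` those of the second phase. The first phase
is good with probability `1 - p₀`; for every good `z` some nonnegative quantities have small average
over `w`. Then for two thirds of the `c` everything is good.
-/

set_option autoImplicit false

open Finset

namespace Vale.Agent.P315.H731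

open Vale.Agent.P315

section joint

variable {C Ω₁ Ω₂ Ω₃ : Type*} [Fintype C] [Fintype Ω₁] [Fintype Ω₂] [Fintype Ω₃]

/-- `(r₁ c, r₂ c)` is uniform on `Ω₁ × Ω₂` when `c` is uniform. -/
def Joint (r₁ : C → Ω₁) (r₂ : C → Ω₂) : Prop :=
  ∀ f : Ω₁ → Ω₂ → ℝ, av (fun c => f (r₁ c) (r₂ c)) = av (fun z => av (fun w => f z w))

theorem Joint.symm {r₁ : C → Ω₁} {r₂ : C → Ω₂} (h : Joint r₁ r₂) : Joint r₂ r₁ := fun f => by
  rw [h (fun z w => f w z)]
  exact av_comm _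

theorem Joint.fst [Nonempty Ω₂] {r₁ : C → Ω₁} {r₂ : C → Ω₂} (h : Joint r₁ r₂) (f : Ω₁ → ℝ) :
    av (fun c => f (r₁ c)) = av f := by
  rw [h (fun z _ => f z)]
  exact av_congr fun z => av_const (Ω := Ω₂) (f z)

theorem Joint.snd [Nonempty Ω₁] {r₁ : C → Ω₁} {r₂ : C → Ω₂} (h : Joint r₁ r₂) (f : Ω₂ → ℝ) :
    av (fun c => f (r₂ c)) = av f := by
  rw [h (fun _ w => f w)]
  exact av_const (Ω := Ω₁) (av f)

theorem Joint.equiv_left (g : Ω₁ ≃ Ω₃) {r₁ : C → Ω₁} {r₂ : C → Ω₂} (h : Joint r₁ r₂) :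
    Joint (fun c => g (r₁ c)) r₂ := fun f => by
  rw [h (fun z w => f (g z) w)]
  exact av_equiv g (fun z => av (fun w => f z w))

/-- **Conditional Markov inequality** for the finitely many quantities `X k`, `k ∈ K`. -/
theorem Joint.two_thirds [Nonempty C] [Nonempty Ω₁] [Nonempty Ω₂] {r₁ : C → Ω₁} {r₂ : C → Ω₂}
    (hJ : Joint r₁ r₂) (E₀ : Ω₁ → Prop) [DecidablePred E₀] {p₀ : ℝ}
    (h₀ : av (fun z => if E₀ z then (0 : ℝ) else 1) ≤ p₀) {κ : Type*} (K : Finset κ)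
    (X : κ → Ω₁ → Ω₂ → ℝ) (hX : ∀ k ∈ K, ∀ z, E₀ z → ∀ w, 0 ≤ X k z w) (a t : κ → ℝ)
    (ha : ∀ k ∈ K, 0 < a k) (ht : ∀ k ∈ K, 0 < t k)
    (hav : ∀ k ∈ K, ∀ z, E₀ z → av (X k z) ≤ a k) (hs : p₀ + ∑ k ∈ K, 1 / t k ≤ 1 / 3)
    (G : C → Prop)
    (hG : ∀ c, E₀ (r₁ c) → (∀ k ∈ K, X k (r₁ c) (r₂ c) ≤ t k * a k) → G c) :
    2 * Nat.card C ≤ 3 * Nat.card {c // G c} := by
  classical
  apply two_thirds_of_bad
  set F : Ω₁ → Ω₂ → ℝ := fun z w => (if E₀ z then (0 : ℝ) else 1) +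
    ∑ k ∈ K, (if E₀ z then X k z w / (t k * a k) else 0) with hF
  have h1 : av (fun c => if ¬ G c then (1 : ℝ) else 0) ≤ av (fun c => F (r₁ c) (r₂ c)) := by
    apply av_mono
    intro c
    have hnn : ∀ k ∈ K, (0 : ℝ) ≤ (if E₀ (r₁ c) then X k (r₁ c) (r₂ c) / (t k * a k) else 0) := by
      intro k hk
      split_ifs with h
      · exact div_nonneg (hX k hk _ h _) (mul_pos (ht k hk) (ha k hk)).le
      · exact le_rfl
    by_cases hc : G c
    · simp only [hc, not_true_eq_false, if_false, hF]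
      refine add_nonneg ?_ (sum_nonneg hnn)
      split_ifs <;> norm_num
    · simp only [hc, not_false_eq_true, if_true, hF]
      by_cases hE : E₀ (r₁ c)
      · have : ¬ ∀ k ∈ K, X k (r₁ c) (r₂ c) ≤ t k * a k := fun h => hc (hG c hE h)
        push Not at this
        obtain ⟨k, hk, hlt⟩ := this
        have h2 := single_le_sum hnn hk
        rw [if_pos hE] at h2
        have h3 : (1 : ℝ) ≤ X k (r₁ c) (r₂ c) / (t k * a k) := by
          rw [le_div_iff₀ (mul_pos (ht k hk) (ha k hk)), one_mul]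
          exact hlt.le
        rw [if_pos hE]
        linarith
      · have := sum_nonneg hnn
        rw [if_neg hE]
        linarith
  rw [hJ F] at h1
  have h2 : av (fun z => av (fun w => F z w)) ≤
      av (fun z => (if E₀ z then (0 : ℝ) else 1) + ∑ k ∈ K, 1 / t k) := by
    apply av_mono
    intro z
    have e1 : av (fun w => F z w) = (if E₀ z then (0 : ℝ) else 1) +
        ∑ k ∈ K, av (fun w => if E₀ z then X k z w / (t k * a k) else 0) := by
      rw [hF]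
      simp only
      rw [av_add, av_const, av_sum]
    rw [e1]
    refine add_le_add le_rfl (sum_le_sum fun k hk => ?_)
    have htk := ht k hk
    have hak := ha k hk
    by_cases hE : E₀ z
    · simp only [if_pos hE]
      rw [av_div_const, div_le_div_iff₀ (mul_pos htk hak) htk, one_mul]
      have := mul_le_mul_of_nonneg_right (hav k hk z hE) htk.le
      have e2 : av (fun w => X k z w) = av (X k z) := rfl
      rw [e2]
      nlinarith
    · simp only [if_neg hE]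
      rw [av_zero]
      positivity
  have h3 : av (fun z => (if E₀ z then (0 : ℝ) else 1) + ∑ k ∈ K, 1 / t k) ≤ 1 / 3 := by
    rw [av_add, av_const]
    linarith
  linarith

/-- The same with a count for the first phase: at most `1 / D` of the seeds are bad. -/
theorem Joint.two_thirds_card [Nonempty C] [Nonempty Ω₁] [Nonempty Ω₂] {r₁ : C → Ω₁}
    {r₂ : C → Ω₂} (hJ : Joint r₁ r₂) (E₀ : Ω₁ → Prop) [DecidablePred E₀] {D : ℕ} (hD : 0 < D)
    (h₀ : D * (univ.filter (fun z => ¬ E₀ z)).card ≤ Fintype.card Ω₁) {κ : Type*} (K : Finset κ)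
    (X : κ → Ω₁ → Ω₂ → ℝ) (hX : ∀ k ∈ K, ∀ z, E₀ z → ∀ w, 0 ≤ X k z w) (a t : κ → ℝ)
    (ha : ∀ k ∈ K, 0 < a k) (ht : ∀ k ∈ K, 0 < t k)
    (hav : ∀ k ∈ K, ∀ z, E₀ z → av (X k z) ≤ a k)
    (hs : 1 / (D : ℝ) + ∑ k ∈ K, 1 / t k ≤ 1 / 3) (G : C → Prop)
    (hG : ∀ c, E₀ (r₁ c) → (∀ k ∈ K, X k (r₁ c) (r₂ c) ≤ t k * a k) → G c) :
    2 * Nat.card C ≤ 3 * Nat.card {c // G c} := by
  refine hJ.two_thirds E₀ (p₀ := 1 / (D : ℝ)) ?_ K X hX a t ha ht hav hs G hG
  have e : (fun z => if E₀ z then (0 : ℝ) else 1) = fun z => if ¬ E₀ z then (1 : ℝ) else 0 := by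
    funext z
    by_cases h : E₀ z <;> simp [h]
  rw [e, av_ind (fun z => ¬ E₀ z), div_le_div_iff₀ (card_pos' (Ω := Ω₁)) (by exact_mod_cast hD),
    one_mul, mul_comm]
  exact_mod_cast h₀

end joint

/-! ### Residues of one vector of seeds -/

section residues

variable {κ ι : Type*} [Fintype κ] [DecidableEq κ] [Fintype ι] [DecidableEq ι]

/-- The coins `c (pos i) % m i` of a vector of seeds. -/
def res {N e : ℕ} (pos : ι → Fin N) (m : ι → ℕ) (hm : ∀ i, 0 < m i) (c : Fin N → Fin e) :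
    ∀ i, Fin (m i) := fun i => ⟨(c (pos i) : ℕ) % m i, Nat.mod_lt _ (hm i)⟩

omit [Fintype ι] [DecidableEq ι] in
theorem coinsOf_tape {N e : ℕ} (pos : ι → Fin N) (m : ι → ℕ) (hm : ∀ i, 0 < m i)
    (c : Fin N → Fin e) : coinsOf (fun i => (pos i : ℕ)) m hm (tape c) = res pos m hm c := by
  funext i
  apply Fin.ext
  show tape c (pos i) % m i = (c (pos i) : ℕ) % m i
  unfold tape
  rw [dif_pos (pos i).isLt]

theorem res_av {N e : ℕ} (he : 0 < e) (pos : ι → Fin N) (hinj : Function.Injective pos)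
    (m : ι → ℕ) (hm : ∀ i, 0 < m i) (hd : ∀ i, m i ∣ e) (f : (∀ i, Fin (m i)) → ℝ) :
    av (fun c : Fin N → Fin e => f (res pos m hm c)) = av f := by
  rw [← tape_av (T := N) (fun i => (pos i : ℕ)) (fun i j h => hinj (Fin.ext h))
    (fun i => (pos i).isLt) m hm hd he f]
  exact av_congr fun c => by rw [coinsOf_tape]

/-- Coins at disjoint positions are independent. -/
theorem joint_res {N e : ℕ} (he : 0 < e) (p₁ : κ → Fin N) (p₂ : ι → Fin N)
    (h₁ : Function.Injective p₁) (h₂ : Function.Injective p₂) (h₁₂ : ∀ k i, p₁ k ≠ p₂ i)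
    (m₁ : κ → ℕ) (m₂ : ι → ℕ) (hm₁ : ∀ k, 0 < m₁ k) (hm₂ : ∀ i, 0 < m₂ i)
    (hd₁ : ∀ k, m₁ k ∣ e) (hd₂ : ∀ i, m₂ i ∣ e) :
    Joint (fun c : Fin N → Fin e => res p₁ m₁ hm₁ c) (fun c => res p₂ m₂ hm₂ c) := by
  intro f
  have hinj : Function.Injective (Sum.elim p₁ p₂) := by
    rintro (k | i) (k' | i') h
    · exact congrArg Sum.inl (h₁ h)
    · exact absurd h (h₁₂ k i')
    · exact absurd h.symm (h₁₂ k' i)
    · exact congrArg Sum.inr (h₂ h)
  have hm : ∀ x : κ ⊕ ι, 0 < Sum.elim m₁ m₂ x := by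
    rintro (k | i)
    · exact hm₁ k
    · exact hm₂ i
  have hd : ∀ x : κ ⊕ ι, Sum.elim m₁ m₂ x ∣ e := by
    rintro (k | i)
    · exact hd₁ k
    · exact hd₂ i
  let Φ : (∀ x : κ ⊕ ι, Fin (Sum.elim m₁ m₂ x)) ≃ (∀ k, Fin (m₁ k)) × (∀ i, Fin (m₂ i)) :=
    Equiv.sumPiEquivProdPi (fun x : κ ⊕ ι => Fin (Sum.elim m₁ m₂ x))
  have h3 := res_av he (Sum.elim p₁ p₂) hinj (Sum.elim m₁ m₂) hm hd
    (fun g => f (Φ g).1 (Φ g).2)
  have h4 : av (fun g : ∀ x : κ ⊕ ι, Fin (Sum.elim m₁ m₂ x) => f (Φ g).1 (Φ g).2) =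
      av (fun z => av (fun w => f z w)) := by
    rw [← av_prod' f]
    exact av_equiv Φ (fun p => f p.1 p.2)
  rw [← h4, ← h3]
  rfl

end residues

/-! ### Two kinds of coins in the first phase -/

theorem joint_res_pair {s R N e M b : ℕ} {ι : Type*} [Fintype ι] [DecidableEq ι] (he : 0 < e)
    (p₁ : Fin s → Fin N) (p₂ : Fin R → Fin N) (p₃ : ι → Fin N) (h₁ : Function.Injective p₁)
    (h₂ : Function.Injective p₂) (h₃ : Function.Injective p₃) (h₁₂ : ∀ k i, p₁ k ≠ p₂ i)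
    (h₁₃ : ∀ k i, p₁ k ≠ p₃ i) (h₂₃ : ∀ k i, p₂ k ≠ p₃ i) (hM : 0 < M) (hb : 0 < b)
    (hMe : M ∣ e) (hbe : b ∣ e) (m : ι → ℕ) (hm : ∀ i, 0 < m i) (hd : ∀ i, m i ∣ e) :
    Joint (fun c : Fin N → Fin e => ((fun t => ⟨(c (p₁ t) : ℕ) % M, Nat.mod_lt _ hM⟩,
      fun t => ⟨(c (p₂ t) : ℕ) % b, Nat.mod_lt _ hb⟩) : (Fin s → Fin M) × (Fin R → Fin b)))
      (fun c => res p₃ m hm c) := by
  have hm' : ∀ x : Fin s ⊕ Fin R, 0 < Sum.elim (fun _ => M) (fun _ => b) x := by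
    rintro (k | i)
    · exact hM
    · exact hb
  have hd' : ∀ x : Fin s ⊕ Fin R, Sum.elim (fun _ => M) (fun _ => b) x ∣ e := by
    rintro (k | i)
    · exact hMe
    · exact hbe
  have hinj : Function.Injective (Sum.elim p₁ p₂) := by
    rintro (k | i) (k' | i') h
    · exact congrArg Sum.inl (h₁ h)
    · exact absurd h (h₁₂ k i')
    · exact absurd h.symm (h₁₂ k' i)
    · exact congrArg Sum.inr (h₂ h)
  have hne : ∀ (x : Fin s ⊕ Fin R) (i : ι), Sum.elim p₁ p₂ x ≠ p₃ i := by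
    rintro (k | k) i
    · exact h₁₃ k i
    · exact h₂₃ k i
  have h := joint_res he (Sum.elim p₁ p₂) p₃ hinj h₃ hne (Sum.elim (fun _ => M) (fun _ => b)) m
    hm' hm hd' hd
  exact h.equiv_left (Equiv.sumPiEquivProdPi
    (fun x : Fin s ⊕ Fin R => Fin (Sum.elim (fun _ => M) (fun _ => b) x)))

/-- **Final form.** The seeds `c` have `N` entries below `e`; the first phase uses `s` coins
modulo `M` and `R` coins modulo `b`, the second phase one coin modulo `q` for every index in `ι`.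
The first phase is bad for at most `1 / 64` of its seeds; for good seeds the nonnegative quantities
`X` and `Y` have averages at most `a` and `a'` over the seeds of the second phase. Then two thirds
of the vectors `c` are good for the first phase and have `X ≤ 8 a` and `Y ≤ 8 a'`. -/
theorem two_phase {s R N e M b q : ℕ} {ι : Type*} [Fintype ι] [DecidableEq ι] (he : 0 < e)
    (p₁ : Fin s → Fin N) (p₂ : Fin R → Fin N) (p₃ : ι → Fin N) (h₁ : Function.Injective p₁)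
    (h₂ : Function.Injective p₂) (h₃ : Function.Injective p₃) (h₁₂ : ∀ k i, p₁ k ≠ p₂ i)
    (h₁₃ : ∀ k i, p₁ k ≠ p₃ i) (h₂₃ : ∀ k i, p₂ k ≠ p₃ i) (hM : 0 < M) (hb : 0 < b) (hq : 0 < q)
    (hMe : M ∣ e) (hbe : b ∣ e) (hqe : q ∣ e)
    (E₀ : (Fin s → Fin M) × (Fin R → Fin b) → Prop) [DecidablePred E₀]
    (h₀ : 64 * (univ.filter (fun z => ¬ E₀ z)).card ≤ M ^ s * b ^ R)
    (X Y : (Fin s → Fin M) × (Fin R → Fin b) → (ι → Fin q) → ℝ)
    (hX : ∀ z, E₀ z → ∀ w, 0 ≤ X z w) (hY : ∀ z, E₀ z → ∀ w, 0 ≤ Y z w) {a a' : ℝ} (ha : 0 < a)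
    (ha' : 0 < a') (hXa : ∀ z, E₀ z → av (X z) ≤ a) (hYa : ∀ z, E₀ z → av (Y z) ≤ a')
    (G : (Fin N → Fin e) → Prop)
    (hG : ∀ (c : Fin N → Fin e) (z : (Fin s → Fin M) × (Fin R → Fin b)) (w : ι → Fin q),
      (∀ t, (z.1 t : ℕ) = (c (p₁ t) : ℕ) % M) → (∀ t, (z.2 t : ℕ) = (c (p₂ t) : ℕ) % b) →
      (∀ i, (w i : ℕ) = (c (p₃ i) : ℕ) % q) → E₀ z → X z w ≤ 8 * a → Y z w ≤ 8 * a' → G c) :
    2 * Nat.card (Fin N → Fin e) ≤ 3 * Nat.card {c : Fin N → Fin e // G c} := by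
  have hJ := joint_res_pair he p₁ p₂ p₃ h₁ h₂ h₃ h₁₂ h₁₃ h₂₃ hM hb hMe hbe (fun _ => q)
    (fun _ => hq) (fun _ => hqe)
  have : Nonempty (Fin N → Fin e) := ⟨fun _ => ⟨0, he⟩⟩
  have : Nonempty ((Fin s → Fin M) × (Fin R → Fin b)) :=
    ⟨(fun _ => ⟨0, hM⟩, fun _ => ⟨0, hb⟩)⟩
  have : Nonempty (ι → Fin q) := ⟨fun _ => ⟨0, hq⟩⟩
  refine hJ.two_thirds_card E₀ (D := 64) (by norm_num) (by simpa using h₀) (univ : Finset Bool)
    (fun k => if k then X else Y) ?_ (fun k => if k then a else a') (fun _ => 8) ?_ ?_ ?_ ?_ G ?_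
  · rintro (_ | _) - z hz w
    · exact hY z hz w
    · exact hX z hz w
  · rintro (_ | _) -
    · exact ha'
    · exact ha
  · intro k _
    norm_num
  · rintro (_ | _) - z hz
    · exact hYa z hz
    · exact hXa z hz
  · norm_num
  · intro c hE hXY
    refine hG c _ (res p₃ (fun _ => q) (fun _ => hq) c) (fun t => rfl) (fun t => rfl)
      (fun i => rfl) hE ?_ ?_
    · exact hXY true (mem_univ _)
    · exact hXY false (mem_univ _)

end Vale.Agent.P315.H731
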