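import Vale.Agent.P315.H731.VisFeed
import Vale.Agent.P315.H207.M2Cst
import Vale.Agent.P315.H155.M2Run

/-!
# The output of the main program of milestone 2

`exists_hout`: for the feed of the main program the strategy `m2Strat` returns a certified cost of
the root for the visible costs `visC`, for the whole read set of the root if it has at most `Q`
cells: this is the hypothesis on the output in `H54.good2_one`.
-/

set_option autoImplicit false

namespace Vale.Agent.P315.H731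

open Vale.Agent.P315 Vale.Agent.P315.C Vale.Agent.P315.H36 Vale.Agent.P315.H54
open Vale.Agent.P315.H608 Vale.Agent.P315.H873 Vale.Agent.P315.H933 Vale.Agent.P315.H155
open Vale.Agent.P315.H95 (clsPar enc)
open Vale.Agent.P315.H659 (nSeed rndOf arrOf)
open Vale.Agent.P315.RAM (len2)
open Vale.Agent.P315.H207.M2 (fvis rndF FitM exists_fitM K_eq2)

/-- The grid of the feed. -/
theorem grid_of {c : Cst2} {q m k : ℕ} {F : List ℕ} {p : ℕ × ℕ} (h : FitM c q m k F p) :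
    Grid ((2 ^ (20 * m)) ^ c.L (gp c q p)) (c.μ2 (sl p) (gp c q p)) (c.ℓ2 (sl p) (gp c q p))
      (c.w0 (sl p) (gp c q p)) (c.B2 (sl p) (gp c q p)) (c.c0 (sl p) (gp c q p)) (pe2 c q p)
      (c.D2 (gp c q p)) where
  ev := h.hev
  dl := h.hd
  dw := h.hdw
  dc := h.h0
  de := h.hpμ
  cB := by
    have h1 := Cst2.K_mul_ℓ2_le_B2 (c := c) (sl p) (gp c q p)
    rw [Cst2.ℓ2_eq_two_mul] at h1
    unfold Cst2.c0
    refine le_trans ?_ h1
    rw [show c.K (gp c q p) * (2 * c.ℓh (sl p) (gp c q p)) =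
      2 * (c.K (gp c q p) * c.ℓh (sl p) (gp c q p)) by ring]
    omega
  eB := h.hpB
  hD := h.hKD

/-- Enough rounds. -/
theorem mul_le_Q2 (c : Cst2) (N g : ℕ) {r : ℕ} (hr : r ≤ c.Q g) :
    r * (2 ^ (c.Kc g + 4) * (c.w0 N g / c.μ2 N g) + 1) ≤ c.Q2 g := by
  rw [Cst2.w0_div_μ2]
  unfold Cst2.Q2
  refine Nat.mul_le_mul hr ?_
  have h1 : 1 ≤ 2 ^ (c.Kc g + 4) * 2 ^ c.z g := Nat.mul_pos Nat.one_le_two_pow Nat.one_le_two_pow
  have h2 : 2 ^ (c.Kc g + c.z g + 5) = 2 * (2 ^ (c.Kc g + 4) * 2 ^ c.z g) := by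
    rw [← pow_add, ← pow_succ']
    congr 1
    omega
  omega

/-- The family of parameters for two lengths. -/
noncomputable abbrev fam2c (c : Cst2) (q m k cd D1 : ℕ) (p : ℕ × ℕ) : QPar :=
  fam2 m k cd D1 (c.L (gp c q p)) (c.S (gp c q p)) (c.ℓ2 (sl p) (gp c q p))
    (c.μ2 (sl p) (gp c q p)) (c.B2 (sl p) (gp c q p)) (c.w0 (sl p) (gp c q p)) (c.Kc (gp c q p))
    (c.Kc (gp c q p))

/-- The visible costs of two strings for the seeds `cc`. -/
noncomputable abbrev visc (c : Cst2) (q : ℕ) (x y : List ℕ) {Ns e : ℕ} (cc : Fin Ns → Fin e) :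
    Leaf :=
  visC ((GF c q).q (len2 x y)) x y (c.ℓh (sl (len2 x y)) (gp c q (len2 x y)))
    (c.c0 (sl (len2 x y)) (gp c q (len2 x y))) cc (c.Nu2 (gp c q (len2 x y)))

/-- The hidden costs of two strings. -/
noncomputable abbrev hidc (c : Cst2) (q : ℕ) (x y : List ℕ) : Leaf :=
  hidC x y (c.ℓh (sl (len2 x y)) (gp c q (len2 x y))) (c.c0 (sl (len2 x y)) (gp c q (len2 x y)))

/-- The read set of the root for two strings and the seeds `cc`. -/
noncomputable def rootc (c : Cst2) (q m k cd D1 : ℕ) (x y : List ℕ) {Ns e : ℕ}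
    (cc : Fin Ns → Fin e) : Finset (ℕ × ℕ) :=
  rd (fam2c c q m k cd D1 (len2 x y)).P (fam2c c q m k cd D1 (len2 x y)).mc
    (rndOf (c.L (gp c q (len2 x y))) (2 ^ (20 * m)) (c.S (gp c q (len2 x y)) + 1)
      (fam2c c q m k cd D1 (len2 x y)).Cn (2 ^ k - 1)
      (fun i => arrOf cc i % (fam2c c q m k cd D1 (len2 x y)).q))
    (visc c q x y cc) (hidc c q x y) (c.L (gp c q (len2 x y))) 0
    (enc (c.Kc (gp c q (len2 x y))) 0 0) (fam2c c q m k cd D1 (len2 x y)).N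

/-- **The output of the main program.** -/
theorem exists_hout (c : Cst2) {m : ℕ} (hm : 0 < m) (hbm : c.bm = 20 * m) (hms : c.ms = 4 * m)
    (k : ℕ) (hak : 2 ≤ c.ak) :
    ∃ g₁ : ℕ, ∀ (q cb N₀ cd D1 : ℕ) (x y : List ℕ), g₁ ≤ gp c q (len2 x y) →
      ∀ {e : ℕ} (cc : Fin (c.Nu2 (gp c q (len2 x y)) + (GF c q).nSd (len2 x y)) → Fin e),
      ∃ R : Finset (ℕ × ℕ),
        (m2Strat m k cd D1).fin ((mulF c q cb N₀).ans x y) ((mulF c q cb N₀).Q (len2 x y))
            ((mulF c q cb N₀).feed (visG (GF c q) x y) (len2 x y) (arrOf cc)) =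
          cval (fam2c c q m k cd D1 (len2 x y)).P (visc c q x y cc) (hidc c q x y) R
              (c.L (gp c q (len2 x y))) 0 (c.c0 (sl (len2 x y)) (gp c q (len2 x y)))
              (pendF x y (c.μ2 (sl (len2 x y)) (gp c q (len2 x y)))
                (c.ℓh (sl (len2 x y)) (gp c q (len2 x y)))
                (c.c0 (sl (len2 x y)) (gp c q (len2 x y))) (c.K (gp c q (len2 x y)))) +
            (2 * c.μ2 (sl (len2 x y)) (gp c q (len2 x y)) + 1) ∧
        ((rootc c q m k cd D1 x y cc).card ≤ c.Q (gp c q (len2 x y)) →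
          R = rootc c q m k cd D1 x y cc) := by
  obtain ⟨g₁, h⟩ := exists_fitM (c := c) hm hbm k hak
  refine ⟨g₁, fun q cb N₀ cd D1 x y hg e cc => ?_⟩
  have hF := h q cb N₀ (len2 x y) hg (visG (GF c q) x y) (arrOf cc)
    (by rw [length_visG, mulF_NV])
  have hG := grid_of hF
  have hvis := agree_fd c q cb N₀ x y (m := 20 * m)
    (w0 := c.w0 (sl (len2 x y)) (gp c q (len2 x y))) (J := 2 ^ k - 1)
    (S := c.S (gp c q (len2 x y)) + 1) (H := famH m (c.L (gp c q (len2 x y)))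
      (c.S (gp c q (len2 x y)))) (Kc := c.Kc (gp c q (len2 x y)) + 3) (D1 := D1)
    (K := (2 ^ (20 * m)) ^ c.L (gp c q (len2 x y))) (K_eq2 hbm _).le cc
  obtain ⟨R, h1, h2⟩ := m2_fin (cd := cd) (D1 := D1) hF.fit hG hF.hD
    (fun i => x.getD i 0) (fun i => y.getD i 0) hF.hpe hvis ((mulF c q cb N₀).Q (len2 x y))
  rw [Cst2.ℓ2_div_two, Cst2.ℓ2_div_μ2] at h1
  have hr := rndF_fd c q cb N₀ x y (arrOf cc) (m := m) (k := k) (nSeed_le_Nu2 c hbm hms _)
    (c.ℓ2 (sl (len2 x y)) (gp c q (len2 x y)))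
  have hr' : rndF m k (c.L (gp c q (len2 x y))) (c.S (gp c q (len2 x y)))
      (c.ℓ2 (sl (len2 x y)) (gp c q (len2 x y)))
      ((mulF c q cb N₀).feed (visG (GF c q) x y) (len2 x y) (arrOf cc)) = _ := hr
  rw [Cst2.ℓ2_div_two, hr'] at h2
  exact ⟨R, h1, fun hQ => h2 (mul_le_Q2 c _ _ hQ)⟩

end Vale.Agent.P315.H731
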