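import Vale.Agent.P315.H731.Tape

/-! The jitters: expected mass of the blocks whose average mass over the children is large. -/

set_option autoImplicit false

open Finset

namespace Vale.Agent.P315.H731

/-! ### Weighted second moment -/

section Shift

variable {ι X β : Type*} [Fintype ι] [DecidableEq ι] [Fintype X] [Nonempty X]

/-- Masses `m i x b ≥ 0` (mass of child `i` at index `b` if its jitter is `x`), of total at most
`1` over the indices in `B`, such that every index receives mass at most `D` over all jitters.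
Then the weighted average over the children has small second moment. -/
theorem second_moment_w (w : ι → ℝ) (hw0 : ∀ i, 0 ≤ w i) (hw1 : ∑ i, w i = 1) {W : ℝ}
    (hW : ∀ i, w i ≤ W) {D : ℝ} (hD : 0 ≤ D) (B : Finset β) (m : ι → X → β → ℝ)
    (h0 : ∀ i x b, 0 ≤ m i x b) (h1 : ∀ i x, ∑ b ∈ B, m i x b ≤ 1)
    (h2 : ∀ i, ∀ b ∈ B, ∑ x, m i x b ≤ D) :
    av (fun ξ : ι → X => ∑ b ∈ B, (∑ i, w i * m i (ξ i) b) ^ 2) ≤ W + D / Fintype.card X := by
  have hX := card_pos' (Ω := X)
  have hle1 : ∀ i x, ∀ b ∈ B, m i x b ≤ 1 := fun i x b hb =>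
    (single_le_sum (f := fun b => m i x b) (fun b _ => h0 i x b) hb).trans (h1 i x)
  have hdiag : ∀ i, av (fun ξ : ι → X => ∑ b ∈ B, m i (ξ i) b * m i (ξ i) b) ≤ 1 := by
    intro i
    apply av_le
    intro ξ
    refine (sum_le_sum fun b hb => ?_).trans (h1 i (ξ i))
    have := hle1 i (ξ i) b hb
    nlinarith [h0 i (ξ i) b]
  have hoff : ∀ i j, i ≠ j → av (fun ξ : ι → X => ∑ b ∈ B, m i (ξ i) b * m j (ξ j) b) ≤
      D / Fintype.card X := by
    intro i j hij
    rw [av_eval₂ (A := fun _ : ι => X) hij.symm (fun y x => ∑ b ∈ B, m i x b * m j y b)]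
    apply av_le
    intro y
    rw [av_sum]
    have : ∀ b ∈ B, av (fun x => m i x b * m j y b) ≤ (D / Fintype.card X) * m j y b := by
      intro b hb
      rw [av_mul_const]
      apply mul_le_mul_of_nonneg_right _ (h0 j y b)
      exact div_le_div_of_nonneg_right (h2 i b hb) hX.le
    refine (sum_le_sum this).trans ?_
    rw [← mul_sum]
    calc (D / (Fintype.card X : ℝ)) * ∑ b ∈ B, m j y b ≤ (D / Fintype.card X) * 1 :=
          mul_le_mul_of_nonneg_left (h1 j y) (by positivity)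
      _ = _ := mul_one _
  have hexp : ∀ ξ : ι → X, ∑ b ∈ B, (∑ i, w i * m i (ξ i) b) ^ 2 =
      ∑ i, ∑ j, w i * w j * ∑ b ∈ B, m i (ξ i) b * m j (ξ j) b := by
    intro ξ
    have : ∀ b ∈ B, (∑ i, w i * m i (ξ i) b) ^ 2 =
        ∑ i, ∑ j, w i * w j * (m i (ξ i) b * m j (ξ j) b) := by
      intro b _
      rw [sq, sum_mul_sum]
      exact sum_congr rfl fun i _ => sum_congr rfl fun j _ => by ring
    rw [sum_congr rfl this, sum_comm]
    apply sum_congr rfl
    intro i _
    rw [sum_comm]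
    apply sum_congr rfl
    intro j _
    rw [mul_sum]
  rw [av_congr hexp, av_sum]
  have hij : ∀ i j, av (fun ξ : ι → X => w i * w j * ∑ b ∈ B, m i (ξ i) b * m j (ξ j) b) ≤
      w i * w j * (if i = j then 1 else D / Fintype.card X) := by
    intro i j
    rw [av_const_mul]
    apply mul_le_mul_of_nonneg_left _ (mul_nonneg (hw0 i) (hw0 j))
    split_ifs with h
    · subst h; exact hdiag i
    · exact hoff i j h
  have hrow : ∀ i, av (fun ξ : ι → X => ∑ j, w i * w j * ∑ b ∈ B, m i (ξ i) b * m j (ξ j) b) ≤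
      w i * (W + D / Fintype.card X) := by
    intro i
    rw [av_sum]
    refine (sum_le_sum fun j _ => hij i j).trans ?_
    have h3 : ∀ j ∈ (univ : Finset ι), w i * w j * (if i = j then (1 : ℝ) else
        D / Fintype.card X) ≤ w i * ((if i = j then W else 0) + w j * (D / Fintype.card X)) := by
      intro j _
      have hi := hw0 i
      have hj := hw0 j
      have hd : 0 ≤ D / (Fintype.card X : ℝ) := by positivity
      split_ifs with h
      · subst h
        have := hW i
        have h4 : 0 ≤ w i * (w i * (D / Fintype.card X)) := by positivity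
        nlinarith
      · rw [zero_add, mul_assoc]
    refine (sum_le_sum h3).trans ?_
    rw [← mul_sum, sum_add_distrib, ← sum_mul, hw1, one_mul, sum_ite_eq]
    simp
  refine (sum_le_sum fun i _ => hrow i).trans ?_
  rw [← sum_mul, hw1, one_mul]

/-- The part of the weighted average above a threshold. -/
theorem atoms_w (w : ι → ℝ) (hw0 : ∀ i, 0 ≤ w i) (hw1 : ∑ i, w i = 1) {W : ℝ}
    (hW : ∀ i, w i ≤ W) {D : ℝ} (hD : 0 ≤ D) (B : Finset β) (m : ι → X → β → ℝ)
    (h0 : ∀ i x b, 0 ≤ m i x b) (h1 : ∀ i x, ∑ b ∈ B, m i x b ≤ 1)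
    (h2 : ∀ i, ∀ b ∈ B, ∑ x, m i x b ≤ D) {u : ℝ} (hu : 0 < u) :
    av (fun ξ : ι → X => ∑ b ∈ B, (if u ≤ ∑ i, w i * m i (ξ i) b then
      ∑ i, w i * m i (ξ i) b else 0)) ≤ (W + D / Fintype.card X) / u := by
  have h := second_moment_w w hw0 hw1 hW hD B m h0 h1 h2
  refine le_trans ?_ (div_le_div_of_nonneg_right h hu.le)
  rw [← av_div_const]
  apply av_mono
  intro ξ
  rw [sum_div]
  apply sum_le_sum
  intro b _
  split_ifs with hb
  · rw [le_div_iff₀ hu]; nlinarith
  · positivity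

end Shift

/-! ### Blocks of a shifted curve -/

/-- Mass of the curve `c`, shifted by the jitter `x`, in the block `k`. -/
def bm (c : ℤ → ℝ) (o : ℤ) (D0 : ℕ) (x k : ℕ) : ℝ :=
  c (o + k * D0 - x) - c (o + (k + 1 : ℕ) * D0 - x)

theorem bm_nonneg {c : ℤ → ℝ} (hc : Antitone c) (o : ℤ) (D0 x k : ℕ) : 0 ≤ bm c o D0 x k := by
  unfold bm
  rw [sub_nonneg]
  apply hc
  have : (k : ℤ) * D0 ≤ (k + 1 : ℕ) * D0 := by
    push_cast; nlinarith [Int.natCast_nonneg D0]
  linarith

theorem sum_bm_le {c : ℤ → ℝ} (h1 : ∀ z z', c z - c z' ≤ 1) (o : ℤ) (D0 x N : ℕ) :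
    ∑ k ∈ range N, bm c o D0 x k ≤ 1 := by
  have : ∑ k ∈ range N, bm c o D0 x k =
      (fun k : ℕ => c (o + k * D0 - x)) 0 - (fun k : ℕ => c (o + k * D0 - x)) N := by
    rw [← sum_range_sub' (fun k : ℕ => c (o + k * D0 - x)) N]
    rfl
  rw [this]
  exact h1 _ _

theorem sum_shift_le {c : ℤ → ℝ} (h1 : ∀ z z', c z - c z' ≤ 1) (s : ℤ) (J D : ℕ) :
    ∑ x ∈ range (J + 1), (c (s - x) - c (s + D - x)) ≤ D := by
  induction D with
  | zero => simp
  | succ D ih =>
    have e : ∀ x ∈ range (J + 1), c (s - x) - c (s + (D + 1 : ℕ) - x) =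
        (c (s - x) - c (s + D - x)) + (c (s + D - x) - c (s + (D + 1 : ℕ) - x)) := by
      intro x _; ring
    rw [sum_congr rfl e, sum_add_distrib]
    have e2 : ∑ x ∈ range (J + 1), (c (s + D - x) - c (s + (D + 1 : ℕ) - x)) ≤ 1 := by
      have : ∑ x ∈ range (J + 1), (c (s + D - x) - c (s + (D + 1 : ℕ) - x)) =
          (fun x : ℕ => c (s + (D + 1 : ℕ) - x)) (J + 1) -
            (fun x : ℕ => c (s + (D + 1 : ℕ) - x)) 0 := by
        rw [← sum_range_sub (fun x : ℕ => c (s + (D + 1 : ℕ) - x)) (J + 1)]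
        apply sum_congr rfl
        intro x _
        congr 2
        push_cast
        ring
      rw [this]
      exact h1 _ _
    have e3 : ((D + 1 : ℕ) : ℝ) = (D : ℝ) + 1 := by push_cast; ring
    rw [e3]
    exact add_le_add ih e2

theorem sum_bm_jit {c : ℤ → ℝ} (h1 : ∀ z z', c z - c z' ≤ 1) (o : ℤ) (D0 J k : ℕ) :
    ∑ x : Fin (J + 1), bm c o D0 x k ≤ D0 := by
  rw [Fin.sum_univ_eq_sum_range (fun x => bm c o D0 x k) (J + 1)]
  have := sum_shift_le h1 (o + k * D0) J D0
  refine le_trans (le_of_eq ?_) this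
  apply sum_congr rfl
  intro x _
  unfold bm
  congr 2
  push_cast
  ring

/-- One region: the children have own curves `c i`; their jitters `ξ i` are uniform in
`0, …, J`. Expected mass of the blocks of length `D0` in which the average mass is at least `u`. -/
theorem jit_one {M J : ℕ} (w : Fin M → ℝ) (hw0 : ∀ i, 0 ≤ w i) (hw1 : ∑ i, w i = 1) {W : ℝ}
    (hW : ∀ i, w i ≤ W) (c : Fin M → ℤ → ℝ) (hc : ∀ i, Antitone (c i))
    (h1 : ∀ i z z', c i z - c i z' ≤ 1) (o : ℤ) (D0 N : ℕ) {u : ℝ} (hu : 0 < u) :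
    av (fun ξ : Fin M → Fin (J + 1) => ∑ k ∈ range N,
      (if u ≤ ∑ i, w i * bm (c i) o D0 (ξ i) k then ∑ i, w i * bm (c i) o D0 (ξ i) k else 0)) ≤
      (W + D0 / (J + 1 : ℝ)) / u := by
  have h := atoms_w (X := Fin (J + 1)) w hw0 hw1 hW (D := D0) (Nat.cast_nonneg _) (range N)
    (fun i x k => bm (c i) o D0 x k) (fun i x k => bm_nonneg (hc i) _ _ _ _)
    (fun i x => sum_bm_le (h1 i) _ _ _ _) (fun i k _ => sum_bm_jit (h1 i) _ _ _ _) hu
  simpa using h

/-! ### All levels of a uniform tree -/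

/-- Random data of the tree: jitters for (level below, child number), and other coins. -/
abbrev TreeCoins (n M J : ℕ) (Ω' : Type) := ((Fin n × Fin M) → Fin (J + 1)) × Ω'

section Tree

variable {n M J : ℕ} {Ω' : Type} [Fintype Ω']

/-- `level a` jitters are resampled. -/
def resamp (a : Fin n) (ω : TreeCoins n M J Ω') (ξ : Fin M → Fin (J + 1)) :
    TreeCoins n M J Ω' :=
  (fun p => if p.1 = a then ξ p.2 else ω.1 p, ω.2)

/-- Averaging over the jitters of one level first. -/
theorem av_resamp [Nonempty Ω'] (a : Fin n) (f : TreeCoins n M J Ω' → ℝ) :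
    av (fun ω => av (fun ξ : Fin M → Fin (J + 1) => f (resamp a ω ξ))) = av f := by
  classical
  rw [av_prod, av_prod f, av_comm, av_comm (fun c d => f (c, d))]
  apply av_congr
  intro t
  rw [← av_resample_set (univ.filter fun p : Fin n × Fin M => p.1 = a) (fun c => f (c, t))]
  apply av_congr
  intro c
  have h := av_restrict (κ := Fin n × Fin M) (X := Fin (J + 1)) (fun i : Fin M => (a, i))
    (fun i j h => (Prod.mk.inj h).2) (fun ξ => f (resamp a (c, t) ξ))
  rw [← h]
  apply av_congr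
  intro d
  congr 1
  refine Prod.ext ?_ rfl
  funext p
  by_cases hp : p.1 = a
  · simp only [resamp, hp, if_true]
    rw [piecewise_eq_of_mem _ _ _ (by simp [hp])]
    rw [← hp]
  · simp only [resamp, hp, if_false]
    rw [piecewise_eq_of_notMem _ _ _ (by simp [hp])]

/-- **Jitter theorem.** Own curves `c ω a t` of the slab `t` of level `a` do not depend on the
jitters of the levels `≥ a`; `σ ω a r` is the index shift of the slab `r` of level `a + 1`, it does
not depend on the jitters of level `a`. For every slab `r` (which may depend on nothing) the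
expected mass of the blocks with average mass at least `u` is small. -/
theorem jit_level [Nonempty Ω'] (a : Fin n) (w : Fin M → ℝ) (hw0 : ∀ i, 0 ≤ w i)
    (hw1 : ∑ i, w i = 1) {W : ℝ} (hW : ∀ i, w i ≤ W)
    (c : TreeCoins n M J Ω' → Fin M → ℤ → ℝ) (hc : ∀ ω i, Antitone (c ω i))
    (h1 : ∀ ω i z z', c ω i z - c ω i z' ≤ 1) (σ : TreeCoins n M J Ω' → ℤ)
    (hcl : ∀ ω ξ, c (resamp a ω ξ) = c ω) (hσ : ∀ ω ξ, σ (resamp a ω ξ) = σ ω)
    (o : ℤ) (D0 N : ℕ) {u : ℝ} (hu : 0 < u) :
    av (fun ω : TreeCoins n M J Ω' => ∑ k ∈ range N,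
      (if u ≤ ∑ i, w i * bm (c ω i) (o - σ ω) D0 (ω.1 (a, i)) k then
        ∑ i, w i * bm (c ω i) (o - σ ω) D0 (ω.1 (a, i)) k else 0)) ≤
      (W + D0 / (J + 1 : ℝ)) / u := by
  rw [← av_resamp a]
  apply av_le
  intro ω
  refine le_trans (le_of_eq ?_) (jit_one w hw0 hw1 hW (c ω) (hc ω) (h1 ω) (o - σ ω) D0 N hu)
  apply av_congr
  intro ξ
  rw [hcl, hσ]
  have e : ∀ i, (resamp a ω ξ).1 (a, i) = ξ i := fun i => by simp [resamp]
  simp only [e]

end Tree

end Vale.Agent.P315.H731
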