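import Vale.Agent.P315.H731.Cond
import Vale.Agent.P315.H846.Stmt2

/-!
# From the query theorem (averages over the seeds) to two thirds of the seeds

`good_plug`: additive theorem. `good2_plug`: multiplicative theorem, with the seeds of `START`.
-/

set_option autoImplicit false

open Finset

namespace Vale.Agent.P315.H731

open Vale.Agent.P315 Vale.Agent.P315.C Vale.Agent.P315.H846
open Vale.Agent.P315.H659 (Ix toRnd)
open Vale.Agent.P315.H808 (Chain)
open Vale.Agent.P315.H95 (enc)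

/-- Certified cost of the root for the seeds `w`. -/
noncomputable def rootVal (Q : QPar) (a : ℕ) (vis hid : Leaf) (u v : ℕ) (w : Q.Seed) : ℕ :=
  cR Q.P Q.mc (toRnd Q.P.J w) vis hid Q.n 0 a Q.N u v

/-- Cells read at the root for the seeds `w`. -/
noncomputable def rootRd (Q : QPar) (a : ℕ) (vis hid : Leaf) (w : Q.Seed) : Finset (ℕ × ℕ) :=
  rd Q.P Q.mc (toRnd Q.P.J w) vis hid Q.n 0 a Q.N

/-- The certified cost of the root is at least the cost of the comparison path (first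
milestone). -/
theorem le_rootVal {Q : QPar} {vis hid : Leaf} {η : ℝ} {C : Chain Q.P vis hid Q.n}
    (hI : Inst Q.P vis hid Q.n η C) (hw : ∀ i, C.w i = Q.P.ℓ) (a : ℕ) (w : Q.Seed) :
    ∑ i ∈ range Q.K, C.d i - η * (Q.P.ℓ * Q.K) ≤
      rootVal Q a vis hid (C.pos 0) (C.pos Q.K) w := by
  have h := hI.lower (rootRd Q a vis hid w) Q.n 0 le_rfl (by
    rw [Nat.sub_self, pow_zero]; exact Nat.one_pos)
  simp only [Nat.zero_mul, Nat.zero_add, Nat.one_mul] at h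
  rw [sum_sub_distrib] at h
  have e : ∑ r ∈ range (Q.P.M ^ Q.n), η * C.w r = η * (Q.P.ℓ * Q.K) := by
    simp only [hw, sum_const, card_range, nsmul_eq_mul]
    unfold QPar.K
    push_cast
    ring
  rw [e] at h
  exact h

theorem le_rootVal2 {Q : QPar} {m w0 Kc κr : ℕ} {vis hid : Leaf} {S0 : ℕ → ℕ}
    {C : Chain Q.P vis hid Q.n} (hI : Inst2 Q.P m w0 Kc κr vis hid Q.n S0 C) (a : ℕ)
    (w : Q.Seed) :
    ∑ i ∈ range Q.K, C.d i ≤ rootVal Q a vis hid (C.pos 0) (C.pos Q.K) w := by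
  have h := hI.lower (rootRd Q a vis hid w) Q.n 0 le_rfl (by
    rw [Nat.sub_self, pow_zero]; exact Nat.one_pos)
  simp only [Nat.zero_mul, Nat.zero_add, Nat.one_mul] at h
  exact h

/-- **Milestone 1**: for two thirds of the seeds the value of the root is at most
`∑ d + 6 (ε + η) ℓ K + 1` and at most `6 A + 1` cells are read. -/
theorem good_plug {Q : QPar} {η ε A : ℝ} (hη : 0 ≤ η) (hQ : Q.Good η ε A) {N e : ℕ} (he : 0 < e)
    (hq : 0 < Q.q) (hqe : Q.q ∣ e) (p : Ix Q.n Q.P.M Q.P.S Q.Cn → Fin N)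
    (hp : Function.Injective p) {vis hid : Leaf} {C : Chain Q.P vis hid Q.n}
    (hI : Inst Q.P vis hid Q.n η C) (hw : ∀ i, C.w i = Q.P.ℓ) (G : (Fin N → Fin e) → Prop)
    (hG : ∀ (c : Fin N → Fin e) (w : Q.Seed), (∀ i, (w i : ℕ) = (c (p i) : ℕ) % Q.q) →
      (rootVal Q 0 vis hid (C.pos 0) (C.pos Q.K) w : ℝ) ≤
        ∑ i ∈ range Q.K, C.d i + 6 * (ε + η) * (Q.P.ℓ * Q.K) + 1 →
      ((rootRd Q 0 vis hid w).card : ℝ) ≤ 6 * A + 1 → G c) :
    2 * Nat.card (Fin N → Fin e) ≤ 3 * Nat.card {c : Fin N → Fin e // G c} := by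
  classical
  obtain ⟨h1, h2⟩ := hQ vis hid C hI hw
  set a₁ : ℝ := (ε + η) * (Q.P.ℓ * Q.K) + 1 / 6 with ha₁
  set a₂ : ℝ := A + 1 / 6 with ha₂
  set X : Q.Seed → ℝ := fun w => (rootVal Q 0 vis hid (C.pos 0) (C.pos Q.K) w : ℝ) -
    (∑ i ∈ range Q.K, C.d i - η * (Q.P.ℓ * Q.K)) with hX
  set Y : Q.Seed → ℝ := fun w => ((rootRd Q 0 vis hid w).card : ℝ) with hY
  have : Nonempty (Fin N → Fin e) := ⟨fun _ => ⟨0, he⟩⟩
  have : Nonempty (∀ _ : Ix Q.n Q.P.M Q.P.S Q.Cn, Fin Q.q) := ⟨fun _ => ⟨0, hq⟩⟩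
  have : Nonempty Q.Seed := ⟨fun _ => ⟨0, hq⟩⟩
  have hX0 : ∀ w, 0 ≤ X w := fun w => by
    have := le_rootVal hI hw 0 w
    simp only [hX]
    linarith
  have hY0 : ∀ w, 0 ≤ Y w := fun w => Nat.cast_nonneg _
  have hXa : av X ≤ (ε + η) * (Q.P.ℓ * Q.K) := by
    have e1 : av X = av (fun w : Q.Seed => (rootVal Q 0 vis hid (C.pos 0) (C.pos Q.K) w : ℝ)) -
        (∑ i ∈ range Q.K, C.d i - η * (Q.P.ℓ * Q.K)) := by
      rw [hX, av_sub, av_const]
    have e2 : av (fun w : Q.Seed => (rootVal Q 0 vis hid (C.pos 0) (C.pos Q.K) w : ℝ)) ≤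
        ∑ i ∈ range Q.K, C.d i + ε * (Q.P.ℓ * Q.K) := h1
    rw [e1]
    linarith
  have hYa : av Y ≤ A := h2
  have ha₁0 : 0 < a₁ := by
    have := (av_nonneg hX0).trans hXa
    rw [ha₁]
    linarith
  have ha₂0 : 0 < a₂ := by
    have := (av_nonneg hY0).trans hYa
    rw [ha₂]
    linarith
  have hJ : Joint (fun _ : Fin N → Fin e => ()) (fun c : Fin N → Fin e =>
      (res p (fun _ => Q.q) (fun _ => hq) c : Q.Seed)) := by
    intro f
    have h3 := res_av he p hp (fun _ => Q.q) (fun _ => hq) (fun _ => hqe) (fun w => f () w)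
    rw [show av (fun z : Unit => av (fun w : Q.Seed => f z w)) = av (fun w : Q.Seed => f () w) from
      av_const (Ω := Unit) _]
    exact h3
  refine hJ.two_thirds (fun _ => True) (p₀ := 0) (by simp [av]) (univ : Finset Bool)
    (fun k _ w => if k then X w else Y w) ?_ (fun k => if k then a₁ else a₂) (fun _ => 6) ?_ ?_ ?_
    ?_ G ?_
  · rintro (_ | _) - _ - w
    · exact hY0 w
    · exact hX0 w
  · rintro (_ | _) -
    · exact ha₂0
    · exact ha₁0
  · intro k _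
    norm_num
  · rintro (_ | _) - _ -
    · have : av Y ≤ a₂ := hYa.trans (by rw [ha₂]; linarith)
      exact this
    · have : av X ≤ a₁ := hXa.trans (by rw [ha₁]; linarith)
      exact this
  · norm_num
  · intro c _ hXY
    have k1 : X (res p (fun _ => Q.q) (fun _ => hq) c) ≤ 6 * a₁ := hXY true (mem_univ _)
    have k2 : Y (res p (fun _ => Q.q) (fun _ => hq) c) ≤ 6 * a₂ := hXY false (mem_univ _)
    refine hG c (res p (fun _ => Q.q) (fun _ => hq) c) (fun i => rfl) ?_ ?_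
    · simp only [hX] at k1
      rw [ha₁] at k1
      have h0 : 0 ≤ η * (Q.P.ℓ * Q.K) := by positivity
      have e3 : 6 * (ε + η) * (Q.P.ℓ * Q.K : ℝ) = 6 * ((ε + η) * (Q.P.ℓ * Q.K)) := by ring
      rw [e3]
      linarith
    · simp only [hY] at k2
      rw [ha₂] at k2
      linarith

/-- **Milestone 2**: the seeds `c` serve both for `START` (coins `c (p₁ t) % M` and
`c (p₂ t) % b`, bad event of probability at most `1 / 64`) and for the query algorithm. The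
visible costs `vis z` depend on the seeds `z` of `START`; for good `z` they form an instance with
`∑ d ≤ D` and `∑ S0 ≤ W`. For two thirds of the `c` the seeds `z` are good, the value of the root is
at most `D + 8 ε W + 1` and at most `8 A + 1` cells are read. -/
theorem good2_plug {Q : QPar} {m w0 Kc κr : ℕ} {ε A : ℝ} (hε : 0 ≤ ε)
    (hQ : Good2 Q m w0 Kc κr ε A)
    {s R N e M b : ℕ} (he : 0 < e) (hM : 0 < M) (hb : 0 < b) (hq : 0 < Q.q) (hMe : M ∣ e)
    (hbe : b ∣ e) (hqe : Q.q ∣ e) (p₁ : Fin s → Fin N) (p₂ : Fin R → Fin N)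
    (p₃ : Ix Q.n Q.P.M Q.P.S Q.Cn → Fin N) (h₁ : Function.Injective p₁)
    (h₂ : Function.Injective p₂) (h₃ : Function.Injective p₃) (h₁₂ : ∀ k i, p₁ k ≠ p₂ i)
    (h₁₃ : ∀ k i, p₁ k ≠ p₃ i) (h₂₃ : ∀ k i, p₂ k ≠ p₃ i)
    (E₀ : (Fin s → Fin M) × (Fin R → Fin b) → Prop) [DecidablePred E₀]
    (h₀ : 64 * (univ.filter (fun z => ¬ E₀ z)).card ≤ M ^ s * b ^ R)
    (vis : (Fin s → Fin M) × (Fin R → Fin b) → Leaf) (hid : Leaf) (u v : ℕ) (D W : ℝ)
    (hI : ∀ z, E₀ z → ∃ (S0 : ℕ → ℕ) (C : Chain Q.P (vis z) hid Q.n),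
      Inst2 Q.P m w0 Kc κr (vis z) hid Q.n S0 C ∧ C.pos 0 = u ∧ C.pos Q.K = v ∧
      ∑ i ∈ range Q.K, C.d i ≤ D ∧ ∑ i ∈ range Q.K, (S0 i : ℝ) ≤ W)
    (G : (Fin N → Fin e) → Prop)
    (hG : ∀ (c : Fin N → Fin e) (z : (Fin s → Fin M) × (Fin R → Fin b)) (w : Q.Seed),
      (∀ t, (z.1 t : ℕ) = (c (p₁ t) : ℕ) % M) → (∀ t, (z.2 t : ℕ) = (c (p₂ t) : ℕ) % b) →
      (∀ i, (w i : ℕ) = (c (p₃ i) : ℕ) % Q.q) → E₀ z →
      (rootVal Q (enc κr 0 0) (vis z) hid u v w : ℝ) ≤ D + 8 * ε * W + 1 →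
      ((rootRd Q (enc κr 0 0) (vis z) hid w).card : ℝ) ≤ 8 * A + 1 → G c) :
    2 * Nat.card (Fin N → Fin e) ≤ 3 * Nat.card {c : Fin N → Fin e // G c} := by
  classical
  have : Nonempty ((Fin s → Fin M) × (Fin R → Fin b)) :=
    ⟨(fun _ => ⟨0, hM⟩, fun _ => ⟨0, hb⟩)⟩
  have : Nonempty Q.Seed := ⟨fun _ => ⟨0, hq⟩⟩
  by_cases hgood : ∃ z, E₀ z
  swap
  · -- no good `z`: impossible
    exfalso
    have h5 : univ.filter (fun z => ¬ E₀ z) =
        (univ : Finset ((Fin s → Fin M) × (Fin R → Fin b))) :=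
      filter_true_of_mem fun z _ hz => hgood ⟨z, hz⟩
    rw [h5, card_univ] at h₀
    simp only [Fintype.card_prod, Fintype.card_pi, Fintype.card_fin, prod_const, card_univ] at h₀
    have : 0 < M ^ s * b ^ R := Nat.mul_pos (Nat.pow_pos hM) (Nat.pow_pos hb)
    omega
  choose S0 C hC using hI
  have hlow : ∀ z (hz : E₀ z) (w : Q.Seed),
      ∑ i ∈ range Q.K, (C z hz).d i ≤ rootVal Q (enc κr 0 0) (vis z) hid u v w := by
    intro z hz w
    have h := le_rootVal2 (hC z hz).1 (enc κr 0 0) w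
    rw [(hC z hz).2.1, (hC z hz).2.2.1] at h
    exact h
  have hav : ∀ z (hz : E₀ z), av (fun w : Q.Seed =>
      (rootVal Q (enc κr 0 0) (vis z) hid u v w : ℝ)) ≤
        ∑ i ∈ range Q.K, (C z hz).d i + ε * W := by
    intro z hz
    have h := (hQ (vis z) hid (S0 z hz) (C z hz) (hC z hz).1).1
    rw [(hC z hz).2.1, (hC z hz).2.2.1] at h
    refine h.trans (add_le_add le_rfl (mul_le_mul_of_nonneg_left (hC z hz).2.2.2.2 hε))
  have hrd : ∀ z (_ : E₀ z), av (fun w : Q.Seed =>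
      ((rootRd Q (enc κr 0 0) (vis z) hid w).card : ℝ)) ≤ A := fun z hz =>
    (hQ (vis z) hid (S0 z hz) (C z hz) (hC z hz).1).2
  have hA0 : 0 ≤ A := by
    obtain ⟨z, hz⟩ := hgood
    exact (av_nonneg fun w => Nat.cast_nonneg _).trans (hrd z hz)
  have hW0 : 0 ≤ W := by
    obtain ⟨z, hz⟩ := hgood
    exact (sum_nonneg fun i _ => Nat.cast_nonneg _).trans (hC z hz).2.2.2.2
  set d : (Fin s → Fin M) × (Fin R → Fin b) → ℝ := fun z =>
    if hz : E₀ z then ∑ i ∈ range Q.K, (C z hz).d i else 0 with hd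
  have hdz : ∀ z (hz : E₀ z), d z = ∑ i ∈ range Q.K, (C z hz).d i := fun z hz => by
    simp only [hd, dif_pos hz]
  refine two_phase he p₁ p₂ p₃ h₁ h₂ h₃ h₁₂ h₁₃ h₂₃ hM hb hq hMe hbe hqe E₀ h₀
    (fun z w => (rootVal Q (enc κr 0 0) (vis z) hid u v w : ℝ) - d z)
    (fun z w => ((rootRd Q (enc κr 0 0) (vis z) hid w).card : ℝ)) ?_ ?_
    (a := ε * W + 1 / 8) (a' := A + 1 / 8) ?_ ?_ ?_ ?_ G ?_
  · intro z hz w
    have := hlow z hz w
    rw [hdz z hz]
    linarith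
  · intro z _ w
    exact Nat.cast_nonneg _
  · have := mul_nonneg hε hW0
    linarith
  · linarith
  · intro z hz
    rw [av_sub, av_const, hdz z hz]
    have := hav z hz
    linarith
  · intro z hz
    have := hrd z hz
    linarith
  · intro c z w e1 e2 e3 hz k1 k2
    refine hG c z w e1 e2 e3 hz ?_ ?_
    · rw [hdz z hz] at k1
      have := (hC z hz).2.2.2.1
      linarith
    · linarith

end Vale.Agent.P315.H731
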