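import Vale.Agent.P315.H731.Avg

/-! Independent repetitions and union bounds for uniform coins. -/

set_option autoImplicit false

open Finset

namespace Vale.Agent.P315.H731

section Prod

variable {κ : Type*} [Fintype κ] [DecidableEq κ] {Ω : κ → Type*} [∀ k, Fintype (Ω k)]

/-- The average of a product of functions of different coins. -/
theorem av_pi_prod (f : ∀ k, Ω k → ℝ) :
    av (fun c : ∀ k, Ω k => ∏ k, f k (c k)) = ∏ k, av (f k) := by
  unfold av
  rw [prod_div_distrib, Fintype.card_pi, prod_univ_sum, Fintype.piFinset_univ]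
  push_cast
  rfl

/-- The probability that all repetitions fail. -/
theorem av_all (P : ∀ k, Ω k → Prop) [∀ k, DecidablePred (P k)] :
    av (fun c : ∀ k, Ω k => if ∀ k, P k (c k) then (1 : ℝ) else 0) =
      ∏ k, av (fun x => if P k x then (1 : ℝ) else 0) := by
  rw [← av_pi_prod]
  apply av_congr
  intro c
  by_cases h : ∀ k, P k (c k)
  · rw [if_pos h]
    exact (prod_eq_one fun k _ => if_pos (h k)).symm
  · rw [if_neg h]
    push Not at h
    obtain ⟨k, hk⟩ := h
    exact (prod_eq_zero (mem_univ k) (if_neg hk)).symm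

end Prod

section Rep

variable {Ω : Type*} [Fintype Ω]

theorem av_not [Nonempty Ω] (P : Ω → Prop) [DecidablePred P] :
    av (fun c => if ¬ P c then (1 : ℝ) else 0) = 1 - av (fun c => if P c then (1 : ℝ) else 0) := by
  have h1 : av (fun c => if ¬ P c then (1 : ℝ) else 0) =
      av (fun c => (1 : ℝ) - (if P c then (1 : ℝ) else 0)) := by
    apply av_congr
    intro c
    by_cases h : P c <;> simp [h]
  rw [h1, av_sub, av_const]

theorem av_ind_nonneg (P : Ω → Prop) [DecidablePred P] :
    0 ≤ av (fun c => if P c then (1 : ℝ) else 0) :=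
  av_nonneg fun c => by split_ifs <;> norm_num

theorem av_ind_le_one (P : Ω → Prop) [DecidablePred P] :
    av (fun c => if P c then (1 : ℝ) else 0) ≤ 1 := by
  rw [av_ind]
  apply div_le_one_of_le₀ _ (Nat.cast_nonneg _)
  exact_mod_cast card_le_univ _

theorem av_ind_mono {P Q : Ω → Prop} [DecidablePred P] [DecidablePred Q] (h : ∀ c, P c → Q c) :
    av (fun c => if P c then (1 : ℝ) else 0) ≤ av (fun c => if Q c then (1 : ℝ) else 0) := by
  apply av_mono
  intro c
  by_cases hp : P c
  · simp [hp, h c hp]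
  · rw [if_neg hp]; split_ifs <;> norm_num

/-- Union bound. -/
theorem av_union {W : Type*} (S : Finset W) (P : W → Ω → Prop) [∀ w, DecidablePred (P w)]
    [DecidablePred fun c => ∃ w ∈ S, P w c] :
    av (fun c => if ∃ w ∈ S, P w c then (1 : ℝ) else 0) ≤
      ∑ w ∈ S, av (fun c => if P w c then (1 : ℝ) else 0) := by
  rw [← av_sum]
  apply av_mono
  intro c
  have h0 : ∀ w ∈ S, (0 : ℝ) ≤ if P w c then (1 : ℝ) else 0 := fun w _ => by
    split_ifs <;> norm_num
  by_cases h : ∃ w ∈ S, P w c
  · rw [if_pos h]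
    obtain ⟨w, hw, hp⟩ := h
    refine le_trans ?_ (single_le_sum h0 hw)
    rw [if_pos hp]
  · rw [if_neg h]
    exact sum_nonneg h0

/-- `G` independent repetitions of an experiment which succeeds with probability at least `p`. -/
theorem rep_fail [Nonempty Ω] {κ : Type*} [Fintype κ] [DecidableEq κ] {p : ℝ}
    (P : Ω → Prop) [DecidablePred P] (hp : p ≤ av (fun c => if P c then (1 : ℝ) else 0)) :
    av (fun c : κ → Ω => if ∀ k, ¬ P (c k) then (1 : ℝ) else 0) ≤ (1 - p) ^ Fintype.card κ := by
  rw [av_all (fun (_ : κ) (x : Ω) => ¬ P x)]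
  rw [prod_const, card_univ, av_not]
  apply pow_le_pow_left₀
  · have := av_ind_le_one P; linarith
  · linarith

theorem one_sub_pow_le {p : ℝ} (hp1 : p ≤ 1) (G : ℕ) : (1 - p) ^ G ≤ Real.exp (-(p * G)) := by
  have h1 : 1 - p ≤ Real.exp (-p) := by
    have := Real.add_one_le_exp (-p); linarith
  calc (1 - p) ^ G ≤ Real.exp (-p) ^ G := pow_le_pow_left₀ (by linarith) h1 G
    _ = Real.exp (-(p * G)) := by
        rw [← Real.exp_nat_mul]; congr 1; ring

/-- For every `w` of a finite family of experiments on the same coins one of the `G` repetitions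
succeeds, except with probability at most `card W * exp (- p G)`. -/
theorem rep_union [Nonempty Ω] {κ W : Type*} [Fintype κ] [DecidableEq κ] (S : Finset W) {p : ℝ}
    (hp1 : p ≤ 1) (P : W → Ω → Prop) [∀ w, DecidablePred (P w)]
    [DecidablePred fun c : κ → Ω => ∃ w ∈ S, ∀ k, ¬ P w (c k)]
    (hp : ∀ w ∈ S, p ≤ av (fun c => if P w c then (1 : ℝ) else 0)) :
    av (fun c : κ → Ω => if ∃ w ∈ S, ∀ k, ¬ P w (c k) then (1 : ℝ) else 0) ≤
      S.card * Real.exp (-(p * Fintype.card κ)) := by
  refine (av_union S (fun w (c : κ → Ω) => ∀ k, ¬ P w (c k))).trans ?_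
  rw [← nsmul_eq_mul, ← sum_const]
  exact sum_le_sum fun w hw => (rep_fail (P w) (hp w hw)).trans (one_sub_pow_le hp1 _)

/-- The number of repetitions that is needed: `G ≥ log (3 card W) / p` gives total failure
probability at most one third. -/
theorem rep_third [Nonempty Ω] {κ W : Type*} [Fintype κ] [DecidableEq κ] (S : Finset W) {p : ℝ}
    (hp1 : p ≤ 1) (P : W → Ω → Prop) [∀ w, DecidablePred (P w)]
    [DecidablePred fun c : κ → Ω => ∃ w ∈ S, ∀ k, ¬ P w (c k)]
    (hp : ∀ w ∈ S, p ≤ av (fun c => if P w c then (1 : ℝ) else 0))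
    (hG : Real.log (3 * S.card) ≤ p * Fintype.card κ) :
    3 * av (fun c : κ → Ω => if ∃ w ∈ S, ∀ k, ¬ P w (c k) then (1 : ℝ) else 0) ≤ 1 := by
  have h := rep_union (κ := κ) S hp1 P hp
  rcases Nat.eq_zero_or_pos S.card with h0 | h0
  · rw [h0] at h
    push_cast at h
    linarith
  · have h1 : (0 : ℝ) < 3 * S.card := by positivity
    have h2 : Real.exp (-(p * Fintype.card κ)) ≤ (3 * (S.card : ℝ))⁻¹ := by
      rw [Real.exp_neg]
      apply inv_anti₀ h1
      rwa [← Real.log_le_iff_le_exp h1]
    have h3 : (S.card : ℝ) * Real.exp (-(p * Fintype.card κ)) ≤ S.card * (3 * (S.card : ℝ))⁻¹ :=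
      mul_le_mul_of_nonneg_left h2 (Nat.cast_nonneg _)
    have h4 : (S.card : ℝ) * (3 * (S.card : ℝ))⁻¹ = 1 / 3 := by
      have : (S.card : ℝ) ≠ 0 := by positivity
      field_simp
    linarith

/-- From a bound for the average to a positive success probability: if `X ≤ u` always and
`av X ≤ u - 2 t` then `X ≤ u - t` with probability at least `t / (u - l)`, where `l ≤ X`. -/
theorem success_of_av [Nonempty Ω] {X : Ω → ℝ} {l u t : ℝ} (hl : ∀ c, l ≤ X c) (ht : 0 ≤ t)
    (hlu : l < u) (hav : av X ≤ u - 2 * t) (P : Ω → Prop)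
    [DecidablePred P] (hP : ∀ c, X c ≤ u - t → P c) :
    t / (u - l) ≤ av (fun c => if P c then (1 : ℝ) else 0) := by
  rw [div_le_iff₀ (by linarith), ← av_mul_const]
  have h1 : av (fun c => (u - t) - X c) ≤ av (fun c => (if P c then (1 : ℝ) else 0) * (u - l)) := by
    apply av_mono
    intro c
    split_ifs with h
    · have := hl c; linarith
    · have : ¬ X c ≤ u - t := fun hc => h (hP c hc)
      linarith
  rw [av_sub, av_const] at h1
  linarith

end Rep

/-! ### Families of coins indexed by a product -/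

section Curry

variable {κ ι : Type*} [Fintype κ] [DecidableEq κ] [Fintype ι] [DecidableEq ι] {A : ι → Type*}
  [∀ i, Fintype (A i)]

/-- Coins indexed by (repetition, coin) are repetitions of the family of coins. -/
theorem av_curry (f : (κ → ∀ i, A i) → ℝ) :
    av (fun c : (∀ q : κ × ι, A q.2) => f (fun k i => c (k, i))) = av f :=
  av_equiv (⟨fun c k i => c (k, i), fun d q => d q.1 q.2, fun _ => rfl, fun _ => rfl⟩ :
    (∀ q : κ × ι, A q.2) ≃ (κ → ∀ i, A i)) f

/-- Coins indexed by a disjoint union. -/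
theorem av_sumtype {κ' ι' : Type*} [Fintype κ'] [DecidableEq κ'] [Fintype ι'] [DecidableEq ι']
    {B : κ' ⊕ ι' → Type*} [∀ i, Fintype (B i)]
    (f : (∀ k, B (Sum.inl k)) × (∀ i, B (Sum.inr i)) → ℝ) :
    av (fun c : (∀ q, B q) => f (fun k => c (Sum.inl k), fun i => c (Sum.inr i))) = av f :=
  av_equiv (Equiv.sumPiEquivProdPi B) f

end Curry

end Vale.Agent.P315.H731
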