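import Vale.Agent.P315.H731.Tape
import Vale.Agent.P315.H731.Rep

/-! Seeds: the first `N` words of the tape modulo `E`, coins read off the seeds, and the final
counting step in the form needed for the statement about tapes. -/

set_option autoImplicit false

open Finset

namespace Vale.Agent.P315.H731

section Seeds

variable {ι : Type*}

theorem coinsOf_congr {pos : ι → ℕ} {e : ι → ℕ} (he : ∀ i, 0 < e i) {ρ ρ' : ℕ → ℕ}
    (h : ∀ i, ρ (pos i) % e i = ρ' (pos i) % e i) : coinsOf pos e he ρ = coinsOf pos e he ρ' := by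
  funext i
  apply Fin.ext
  exact h i

/-- Coins may be read off the seeds `ρ i % E` if all moduli divide `E`. -/
theorem coinsOf_mod {pos : ι → ℕ} {e : ι → ℕ} (he : ∀ i, 0 < e i) {E : ℕ} (hE : ∀ i, e i ∣ E)
    (ρ : ℕ → ℕ) : coinsOf pos e he (fun i => ρ i % E) = coinsOf pos e he ρ := by
  apply coinsOf_congr
  intro i
  exact Nat.mod_mod_of_dvd _ (hE i)

/-- The list of the first `N` seeds. -/
def seedList (ρ : ℕ → ℕ) (k E N : ℕ) : List ℕ := (List.range N).map fun i => ρ (k + i) % E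

theorem seedList_getD (ρ : ℕ → ℕ) (k E : ℕ) {N i : ℕ} (hi : i < N) :
    (seedList ρ k E N).getD i 0 = ρ (k + i) % E := by
  unfold seedList
  rw [List.getD_eq_getElem _ _ (by simpa using hi)]
  simp

theorem seedList_length (ρ : ℕ → ℕ) (k E N : ℕ) : (seedList ρ k E N).length = N := by
  simp [seedList]

/-- Coins read off the list of seeds. -/
theorem coinsOf_seedList {pos : ι → ℕ} {e : ι → ℕ} (he : ∀ i, 0 < e i) {E N : ℕ}
    (hE : ∀ i, e i ∣ E) (hpos : ∀ i, pos i < N) (ρ : ℕ → ℕ) :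
    coinsOf pos e he (fun i => (seedList ρ 0 E N).getD i 0) = coinsOf pos e he ρ := by
  rw [← coinsOf_mod he hE ρ]
  apply coinsOf_congr
  intro i
  rw [seedList_getD ρ 0 E (hpos i), Nat.zero_add]

end Seeds

/-- The seeds `ρ i % E`, `i < N`, of the infinite tape. -/
def seedFn (E N : ℕ) (hE : 0 < E) (ρ : ℕ → ℕ) : Fin N → Fin E :=
  fun i => ⟨ρ i % E, Nat.mod_lt _ hE⟩

theorem seedFn_eq_coinsOf (E N : ℕ) (hE : 0 < E) (ρ : ℕ → ℕ) :
    seedFn E N hE ρ = coinsOf (fun i : Fin N => (i : ℕ)) (fun _ => E) (fun _ => hE) ρ := rfl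

/-- Averages of functions of the seeds. -/
theorem seed_av {W T N E : ℕ} (hT : N ≤ T) (hE : 0 < E) (hd : E ∣ W) (hW : 0 < W)
    (f : (Fin N → Fin E) → ℝ) :
    av (fun ρ : Fin T → Fin W => f (seedFn E N hE (tape ρ))) = av f :=
  tape_av (fun i : Fin N => (i : ℕ)) Fin.val_injective (fun i => i.isLt.trans_le hT)
    (fun _ => E) (fun _ => hE) (fun _ => hd) hW f

/-- If at most one third of the seeds is bad then at least two thirds of the tapes are good. -/
theorem seed_two_thirds {W T N E : ℕ} (hT : N ≤ T) (hE : 0 < E) (hd : E ∣ W) (hW : 0 < W)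
    (Q : (Fin N → Fin E) → Prop) (h : 3 * Nat.card {c // ¬ Q c} ≤ E ^ N)
    (P : (Fin T → Fin W) → Prop) (hP : ∀ ρ, Q (seedFn E N hE (tape ρ)) → P ρ) :
    2 * Nat.card (Fin T → Fin W) ≤ 3 * Nat.card {ρ : Fin T → Fin W // P ρ} := by
  classical
  apply tape_two_thirds_bad (fun i : Fin N => (i : ℕ)) Fin.val_injective
    (fun i => i.isLt.trans_le hT) (fun _ => E) (fun _ => hE) (fun _ => hd) hW Q _ P hP
  rw [Nat.card_eq_fintype_card, Fintype.card_subtype] at h
  simpa using h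

/-- The same from good seeds. -/
theorem seed_two_thirds' {W T N E : ℕ} (hT : N ≤ T) (hE : 0 < E) (hd : E ∣ W) (hW : 0 < W)
    (Q : (Fin N → Fin E) → Prop) (h : 2 * E ^ N ≤ 3 * Nat.card {c // Q c})
    (P : (Fin T → Fin W) → Prop) (hP : ∀ ρ, Q (seedFn E N hE (tape ρ)) → P ρ) :
    2 * Nat.card (Fin T → Fin W) ≤ 3 * Nat.card {ρ : Fin T → Fin W // P ρ} := by
  classical
  apply seed_two_thirds hT hE hd hW Q _ P hP
  have h1 := card_filter_add_card_filter_not (s := (univ : Finset (Fin N → Fin E)))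
    (fun c => Q c)
  rw [card_univ] at h1
  rw [Nat.card_eq_fintype_card, Fintype.card_subtype] at h ⊢
  simp only [Fintype.card_fun, Fintype.card_fin] at h1
  omega

/-- Markov for seeds: `X ≥ 0` of average at most `a / 3`. -/
theorem seed_markov {W T N E : ℕ} (hT : N ≤ T) (hE : 0 < E) (hd : E ∣ W) (hW : 0 < W)
    (X : (Fin N → Fin E) → ℝ) (hX : ∀ c, 0 ≤ X c) {a : ℝ} (ha : 0 < a) (h : 3 * av X ≤ a)
    (P : (Fin T → Fin W) → Prop) (hP : ∀ ρ, X (seedFn E N hE (tape ρ)) ≤ a → P ρ) :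
    2 * Nat.card (Fin T → Fin W) ≤ 3 * Nat.card {ρ : Fin T → Fin W // P ρ} :=
  tape_two_thirds (fun i : Fin N => (i : ℕ)) Fin.val_injective (fun i => i.isLt.trans_le hT)
    (fun _ => E) (fun _ => hE) (fun _ => hd) hW X hX ha h P hP

/-- Two nonnegative quantities (error of the value, number of reads): `6 av X ≤ a`,
`6 av Y ≤ b` give both `X ≤ a` and `Y ≤ b` for two thirds of the tapes; the coins have arbitrary
moduli dividing the word size. -/
theorem tape_two_markov {ι : Type*} [Fintype ι] [DecidableEq ι] {W T : ℕ} (pos : ι → ℕ)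
    (hinj : Function.Injective pos) (hT : ∀ i, pos i < T)
    (e : ι → ℕ) (he : ∀ i, 0 < e i) (hd : ∀ i, e i ∣ W) (hW : 0 < W)
    (X Y : (∀ i, Fin (e i)) → ℝ) (hX : ∀ c, 0 ≤ X c) (hY : ∀ c, 0 ≤ Y c) {a b : ℝ} (ha : 0 < a)
    (hb : 0 < b) (h : 6 * av X ≤ a) (h' : 6 * av Y ≤ b)
    (P : (Fin T → Fin W) → Prop)
    (hP : ∀ ρ, X (coinsOf pos e he (tape ρ)) ≤ a → Y (coinsOf pos e he (tape ρ)) ≤ b → P ρ) :
    2 * Nat.card (Fin T → Fin W) ≤ 3 * Nat.card {ρ : Fin T → Fin W // P ρ} := by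
  classical
  apply two_thirds_of_bad
  have m1 := markov (Ω := ∀ i, Fin (e i)) hX a (fun c => ¬ X c ≤ a) (fun c hc => (not_le.mp hc).le)
  have m2 := markov (Ω := ∀ i, Fin (e i)) hY b (fun c => ¬ Y c ≤ b) (fun c hc => (not_le.mp hc).le)
  have n1 : 6 * av (fun c => if ¬ X c ≤ a then (1 : ℝ) else 0) ≤ 1 := by
    have : a * (6 * av (fun c => if ¬ X c ≤ a then (1 : ℝ) else 0)) ≤ a * 1 := by linarith
    exact le_of_mul_le_mul_left this ha
  have n2 : 6 * av (fun c => if ¬ Y c ≤ b then (1 : ℝ) else 0) ≤ 1 := by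
    have : b * (6 * av (fun c => if ¬ Y c ≤ b then (1 : ℝ) else 0)) ≤ b * 1 := by linarith
    exact le_of_mul_le_mul_left this hb
  have h1 : av (fun ρ : Fin T → Fin W => if ¬ P ρ then (1 : ℝ) else 0) ≤
      av (fun ρ : Fin T → Fin W => (fun c => (if ¬ X c ≤ a then (1 : ℝ) else 0) +
        (if ¬ Y c ≤ b then (1 : ℝ) else 0)) (coinsOf pos e he (tape ρ))) := by
    apply av_mono
    intro ρ
    by_cases hp : P ρ
    · simp only [hp, not_true, if_false]
      have i1 : ∀ q : Prop, ∀ [Decidable q], (0 : ℝ) ≤ if q then (1 : ℝ) else 0 := by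
        intro q _; split_ifs <;> norm_num
      exact add_nonneg (i1 _) (i1 _)
    · rw [if_pos hp]
      by_cases hx : X (coinsOf pos e he (tape ρ)) ≤ a
      · have hy : ¬ Y (coinsOf pos e he (tape ρ)) ≤ b := fun hy => hp (hP ρ hx hy)
        simp [hx, hy]
      · by_cases hy : Y (coinsOf pos e he (tape ρ)) ≤ b <;> simp [hx, hy]
  rw [tape_av pos hinj hT e he hd hW (fun c => (if ¬ X c ≤ a then (1 : ℝ) else 0) +
        (if ¬ Y c ≤ b then (1 : ℝ) else 0)), av_add] at h1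
  linarith

end Vale.Agent.P315.H731
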