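import Vale.Agent.P315.H731.VisCongr
import Vale.Agent.P315.H36.VisL
import Vale.Agent.P315.H220.MachWPT

/-!
# The visible costs read from the feed

`visTab F base nS nE mu l2`: the leaf read from the list `F` from the address `base` on, row-major
`(i * nS + p / mu) * nE + (q + l2 - p) / mu`. If `F = A ++ visL ..` and `base = |A|`, it agrees
with the visible costs `visM` of `START` on all admissible mesh steps of the rows `< Kr`; hence read
sets and certified costs are the same (`rd_visTab`, `cval_visTab`, `cR_visTab`).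
-/

set_option autoImplicit false

namespace Vale.Agent.P315.H731

open Vale.Agent.P315 Vale.Agent.P315.C Vale.Agent.P315.H36 Vale.Agent.P315.H54
open Vale.Agent.P315.H95 (clsPar)

/-- The visible costs read from a list. -/
def visTab (F : List ℕ) (base nS nE mu l2 : ℕ) : Leaf := fun i p q =>
  F.getD (base + ((i * nS + p / mu) * nE + (q + l2 - p) / mu)) 0

theorem getD_append_base (A V : List ℕ) (t : ℕ) : (A ++ V).getD (A.length + t) 0 = V.getD t 0 := by
  rw [List.getD_append_right _ _ _ _ (Nat.le_add_right _ _), Nat.add_sub_cancel_left]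

theorem visTab_append (A V : List ℕ) (nS nE mu l2 i p q : ℕ) :
    visTab (A ++ V) A.length nS nE mu l2 i p q =
      V.getD ((i * nS + p / mu) * nE + (q + l2 - p) / mu) 0 := getD_append_base A V _

/-- The table is `visM` on the mesh steps. -/
theorem visTab_visL {T : Tb} {q : SP} {X Y hub off : ℕ → ℕ} (A : List ℕ) (hd : T.mu ∣ T.l2)
    (hnE : 2 * T.l2 / T.mu < T.nE) {i p p' : ℕ} (hi : i < T.Kr) (hp : T.mu ∣ p) (hp' : T.mu ∣ p')
    (hs : p / T.mu < T.nS) (h1 : p ≤ p' + T.l2) (h2 : p' ≤ p + T.l2) :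
    visTab (A ++ visL T q X Y hub off) A.length T.nS T.nE T.mu T.l2 i p p' =
      visM q X Y hub off T.l2 T.c0 i p p' := by
  rw [visTab_append]
  exact getD_mesh hd hnE hi hp hp' hs h1 h2

section

variable {m ℓ B w0 J S H Kc D1 : ℕ} {T : Tb} {q : SP} {X Y hub off : ℕ → ℕ}

/-- Agreement on the admissible mesh steps of the rows `< Kr`. -/
theorem agreeOn_visTab (A : List ℕ) (hℓ : ℓ = 2 * T.l2) (hd : T.mu ∣ T.l2)
    (hnE : ℓ / T.mu < T.nE) (hnS : B / T.mu < T.nS) {K : ℕ} (hK : K ≤ T.Kr) :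
    AgreeOn (clsPar m ℓ T.mu B w0 J S H Kc D1) K
      (visTab (A ++ visL T q X Y hub off) A.length T.nS T.nE T.mu T.l2)
      (visM q X Y hub off T.l2 T.c0) := by
  rintro i hi p p' ⟨hp, hp', hpB, -, had⟩
  have had' : Nat.dist p p' ≤ ℓ / 2 := had
  have hdist : p ≤ p' + T.l2 ∧ p' ≤ p + T.l2 := by
    unfold Nat.dist at had'
    omega
  exact visTab_visL A hd (by rw [← hℓ]; exact hnE) (lt_of_lt_of_le hi hK) hp hp'
    (lt_of_le_of_lt (Nat.div_le_div_right hpB) hnS) hdist.1 hdist.2

end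

/-! ### Machines -/

/-- Local machines only look at the unit rows which exist. -/
theorem laneRow_of_loc {P : Par} {mc : Mach} {labs : ℕ → ℕ → ℕ → ℕ → List ℕ}
    (h : H804.LaneLoc P mc labs) : LaneRow P mc :=
  fun s q κ j a D D' coin hs hd hj hD m hm =>
    h s q κ j a D D' coin hs hd hj (fun κ' hκ' m' hm' x _ u v _ _ => hD κ' hκ' m' hm' x u v) m hm

theorem laneRow_machW (X : H155.MPW) {LB : ℕ → ℕ → List ℕ} (hLB : ∀ s a, LB s a ≠ [])
    (m ℓ μ B w0 J S H Kc D1 : ℕ) :
    LaneRow (clsPar m ℓ μ B w0 J S H Kc D1) (H155.machW X LB m μ B w0) :=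
  laneRow_of_loc (H220.machW_laneLoc X hLB m ℓ μ B w0 J S H Kc D1)

end Vale.Agent.P315.H731
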